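import Crest.Agent.R120.Exc

/-!
Row 120: the C⋆-algebra generated by the UHF algebra and the linking unitaries.
-/

set_option autoImplicit false
set_option linter.unusedSectionVars false

namespace Crest.Agent.R120

open Filter Topology Finset UHF
open scoped InnerProductSpace

variable {D : Type} [NormedRing D] [StarRing D] [CStarRing D] [NormedAlgebra ℂ D] [StarModule ℂ D]

/-- a C⋆-algebra generated by `D` and linking unitaries for a maximal disjoint family -/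
structure Model (u : UHF D) (A : Type) [CStarAlgebra A] where
  F : Set u.Exc
  base_mem : u.base ∈ F
  pair : F.Pairwise Orth
  maxi : ∀ γ, ∃ α ∈ F, ¬ Orth α γ
  ι : D →⋆ₐ[ℂ] A
  hι : ∀ d, ‖ι d‖ ≤ ‖d‖
  U : u.Exc → A
  hU : ∀ α ∈ F, U α ∈ unitary A
  U_base : U u.base = 1
  rel : ∀ α ∈ F, ∀ n, U α * (1 - ι (α.p n)) = ι (α.w n * (1 - α.p n))
  gen : ∀ T : Subalgebra ℂ A, IsClosed (T : Set A) → (∀ d, ι d ∈ T) →
    (∀ α ∈ F, U α ∈ T ∧ star (U α) ∈ T) → ∀ a, a ∈ T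

namespace Model
variable {u : UHF D} {A : Type} [CStarAlgebra A] (M : Model u A)

lemma conj {α : u.Exc} (hα : α ∈ M.F) (n : ℕ) :
    M.U α * M.ι (α.p n) * star (M.U α) = M.ι (α.q n) := by
  rw [conj_eq (w := M.ι (α.w n)) ((α.hp n).map M.ι)
    (by rw [← map_star, ← map_mul, (α.hw n).2, map_one]) (M.hU α hα).2
    (by rw [M.rel α hα]; simp), α.hq]
  simp [map_star]

lemma q_mul {α : u.Exc} (hα : α ∈ M.F) (n : ℕ) : M.ι (α.q n) * M.U α = M.U α * M.ι (α.p n) := by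
  rw [← M.conj hα, mul_assoc, (M.hU α hα).1, mul_one]

lemma rel' {α : u.Exc} (hα : α ∈ M.F) (n : ℕ) :
    star (M.U α) * (1 - M.ι (α.q n)) = M.ι (star (α.w n * (1 - α.p n))) := by
  rw [map_star, ← M.rel α hα, star_mul, ((α.hp n).map M.ι).one_sub.isSelfAdjoint.star_eq,
    ← M.conj hα, mul_sub, sub_mul, ← mul_assoc, ← mul_assoc, (M.hU α hα).1]
  simp

lemma q_fix {α : u.Exc} (hα : α ∈ M.F) (n : ℕ) :
    ∀ᶠ k in atTop, M.ι (α.q n) * M.U α * M.ι (u.e k) = M.U α * M.ι (u.e k) := by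
  filter_upwards [α.lo' n] with k hk
  rw [M.q_mul hα, mul_assoc, ← map_mul, hk]

lemma norm_U {α : u.Exc} (hα : α ∈ M.F) (a : A) : ‖a * M.U α‖ = ‖a‖ :=
  CStarRing.norm_mul_mem_unitary a (M.hU α hα)

/-- normal forms -/
noncomputable def V : Submodule ℂ A := Submodule.span ℂ {y | ∃ b, ∃ β ∈ M.F, y = M.ι b * M.U β}

/-- elements that have a normal form near the base state -/
noncomputable def S : Submodule ℂ A where
  carrier := {a | ∀ ε > 0, ∃ x ∈ M.V, ∀ᶠ k in atTop, ‖(a - x) * M.ι (u.e k)‖ ≤ ε}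
  add_mem' := by
    intro a b ha hb ε hε
    obtain ⟨x, hx, h1⟩ := ha _ (half_pos hε)
    obtain ⟨y, hy, h2⟩ := hb _ (half_pos hε)
    refine ⟨x + y, add_mem hx hy, ?_⟩
    filter_upwards [h1, h2] with k h1 h2
    rw [add_sub_add_comm, add_mul]
    exact (norm_add_le _ _).trans (by linarith)
  zero_mem' := fun ε hε => ⟨0, zero_mem _, by simp [hε.le]⟩
  smul_mem' := by
    intro c a ha ε hε
    obtain ⟨x, hx, h1⟩ := ha (ε / (‖c‖ + 1)) (by positivity)
    refine ⟨c • x, Submodule.smul_mem _ c hx, ?_⟩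
    filter_upwards [h1] with k h1
    rw [← smul_sub, smul_mul_assoc, norm_smul]
    refine (mul_le_mul_of_nonneg_left h1 (norm_nonneg c)).trans ?_
    rw [mul_div_assoc', div_le_iff₀ (by positivity)]
    nlinarith [norm_nonneg c]

lemma V_le_S : M.V ≤ M.S := fun x hx ε hε => ⟨x, hx, by simp [hε.le]⟩

lemma mem_S_of_approx {a : A}
    (h : ∀ ε > 0, ∃ s ∈ M.S, ∀ᶠ k in atTop, ‖(a - s) * M.ι (u.e k)‖ ≤ ε) : a ∈ M.S := by
  intro ε hε
  obtain ⟨s, hs, h1⟩ := h _ (half_pos hε)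
  obtain ⟨x, hx, h2⟩ := hs _ (half_pos hε)
  refine ⟨x, hx, ?_⟩
  filter_upwards [h1, h2] with k h1 h2
  rw [← sub_add_sub_cancel a s x, add_mul]
  exact (norm_add_le _ _).trans (by linarith)

lemma isClosed_S : IsClosed (M.S : Set A) := by
  refine isClosed_of_closure_subset fun a ha => M.mem_S_of_approx fun ε hε => ?_
  obtain ⟨s, hs, h⟩ := Metric.mem_closure_iff.1 ha ε hε
  refine ⟨s, hs, Eventually.of_forall fun k => ?_⟩
  rw [dist_eq_norm] at h
  exact (norm_mul_proj_le ((u.e_proj k).map M.ι) _).trans h.le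

lemma mul_mem_S {g : A} (h : ∀ b, ∀ β ∈ M.F, g * (M.ι b * M.U β) ∈ M.S) {s : A} (hs : s ∈ M.S) :
    g * s ∈ M.S := by
  have h1 : ∀ x ∈ M.V, g * x ∈ M.S := by
    intro x hx
    induction hx using Submodule.span_induction with
    | mem y hy =>
      obtain ⟨b, β, hβ, rfl⟩ := hy
      exact h b β hβ
    | zero => simp
    | add x y _ _ hx hy => rw [mul_add]; exact add_mem hx hy
    | smul c x _ hx => rw [mul_smul_comm]; exact Submodule.smul_mem _ c hx
  refine M.mem_S_of_approx fun ε hε => ?_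
  obtain ⟨x, hx, h2⟩ := hs (ε / (‖g‖ + 1)) (by positivity)
  refine ⟨g * x, h1 x hx, ?_⟩
  filter_upwards [h2] with k h2
  rw [← mul_sub, mul_assoc]
  refine (norm_mul_le _ _).trans ((mul_le_mul_of_nonneg_left h2 (norm_nonneg g)).trans ?_)
  rw [mul_div_assoc', div_le_iff₀ (by positivity)]
  nlinarith [norm_nonneg g]

lemma corner {α β : u.Exc} (hα : α ∈ M.F) (hβ : β ∈ M.F) (b : D) {ε : ℝ} (hε : 0 < ε) :
    ∃ (z : ℂ) (n : ℕ), (α ≠ β → z = 0) ∧ ‖α.q n * b * β.q n - z • β.q n‖ ≤ ε := by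
  by_cases h : α = β
  · subst h
    obtain ⟨z, n, hn⟩ := α.exc b ε hε
    exact ⟨z, n, fun h => (h rfl).elim, hn⟩
  · obtain ⟨n, hn⟩ := M.pair hα hβ h b ε hε
    exact ⟨0, n, fun _ => rfl, by simpa using hn⟩

lemma corner' {α β : u.Exc} (hα : α ∈ M.F) (hβ : β ∈ M.F) (b : D) {ε : ℝ} (hε : 0 < ε) :
    ∃ (z : ℂ) (n : ℕ), (α ≠ β → z = 0) ∧ ∀ᶠ k in atTop, ∀ c : A, ‖c‖ ≤ 1 →
      c * M.ι (α.q n) = c →
      ‖c * (M.ι b * M.U β) * M.ι (u.e k) - z • (c * M.U β * M.ι (u.e k))‖ ≤ ε := by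
  obtain ⟨z, n, h1, h2⟩ := M.corner hα hβ b hε
  refine ⟨z, n, h1, ?_⟩
  filter_upwards [M.q_fix hβ n] with k hk c hc hcq
  have e : c * (M.ι b * M.U β) * M.ι (u.e k) - z • (c * M.U β * M.ι (u.e k)) =
      c * M.ι (α.q n * b * β.q n - z • β.q n) * M.U β * M.ι (u.e k) := by
    have e1 : ∀ y, c * (M.ι (α.q n) * y) = c * y := fun y => by rw [← mul_assoc, hcq]
    rw [mul_assoc] at hk
    simp only [map_sub, map_smul, map_mul, mul_sub, sub_mul, mul_smul_comm, smul_mul_assoc,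
      mul_assoc, e1, hk]
  rw [e]
  refine (norm_mul_proj_le ((u.e_proj k).map M.ι) _).trans ?_
  rw [M.norm_U hβ]
  refine (norm_mul_le _ _).trans ?_
  exact (mul_le_of_le_one_left (norm_nonneg _) hc).trans ((M.hι _).trans h2)

lemma gen_mem_S {g : A} {α : u.Exc} (hα : α ∈ M.F) (hg : ‖g‖ ≤ 1) (hV : g * M.U α ∈ M.V)
    (h : ∀ n, ∃ c d : D, IsStarProjection c ∧ c * α.q n = c ∧ g * (1 - M.ι c) = M.ι d ∧
      ∀ᶠ k in atTop, M.ι c * M.U α * M.ι (u.e k) = M.U α * M.ι (u.e k)) (b : D) (β : u.Exc)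
    (hβ : β ∈ M.F) : g * (M.ι b * M.U β) ∈ M.S := by
  intro ε hε
  obtain ⟨z, n, h1, h2⟩ := M.corner' hα hβ b hε
  obtain ⟨c, d, hc, hcq, hd, hk⟩ := h n
  refine ⟨M.ι (d * b) * M.U β + z • (g * M.U α), add_mem
    (Submodule.subset_span ⟨_, β, hβ, rfl⟩) (Submodule.smul_mem _ _ hV), ?_⟩
  filter_upwards [h2, hk] with k h2 hk
  have h3 := h2 (g * M.ι c) ((norm_mul_proj_le (hc.map M.ι) g).trans hg)
    (by rw [mul_assoc, ← map_mul, hcq])
  have e : (g * (M.ι b * M.U β) - (M.ι (d * b) * M.U β + z • (g * M.U α))) * M.ι (u.e k) =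
      g * M.ι c * (M.ι b * M.U β) * M.ι (u.e k) - z • (g * M.ι c * M.U β * M.ι (u.e k)) := by
    have e1 : z • (g * M.ι c * M.U β * M.ι (u.e k)) = z • (g * M.U α * M.ι (u.e k)) := by
      by_cases hαβ : α = β
      · subst hαβ
        rw [mul_assoc g, mul_assoc g, hk, mul_assoc]
      · simp [h1 hαβ]
    rw [e1, map_mul, ← hd]
    simp only [mul_sub, sub_mul, add_mul, mul_assoc, smul_mul_assoc, one_mul]
    abel
  rwa [e]

lemma mem_S (a : A) : a ∈ M.S := by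
  let T : Subalgebra ℂ A :=
    { carrier := {g | ∀ s ∈ M.S, g * s ∈ M.S}
      mul_mem' := fun ha hb s hs => by rw [mul_assoc]; exact ha _ (hb s hs)
      add_mem' := fun ha hb s hs => by rw [add_mul]; exact add_mem (ha s hs) (hb s hs)
      algebraMap_mem' := fun c s hs => by
        rw [← Algebra.smul_def]; exact Submodule.smul_mem _ c hs }
  have hT : IsClosed (T : Set A) := by
    have : (T : Set A) = ⋂ s ∈ M.S, (fun g => g * s) ⁻¹' M.S := by
      ext g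
      simp [T]
    rw [this]
    exact isClosed_biInter fun s _ => M.isClosed_S.preimage (by fun_prop)
  have h1 : (1 : A) ∈ M.V := Submodule.subset_span ⟨1, u.base, M.base_mem, by simp [M.U_base]⟩
  have hn : ∀ v ∈ unitary A, ‖v‖ ≤ 1 := fun v hv => by
    have := CStarRing.norm_mul_mem_unitary (1 : A) hv
    rw [one_mul] at this
    rw [this]
    exact (IsStarProjection.one A).norm_le _
  have := M.gen T hT (fun d s hs => M.mul_mem_S (fun b β hβ => M.V_le_S
    (Submodule.subset_span ⟨d * b, β, hβ, by simp [mul_assoc]⟩)) hs) (fun γ hγ => ⟨fun s hs => ?_,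
      fun s hs => ?_⟩) a 1 (M.V_le_S h1)
  · simpa using this
  · refine M.mul_mem_S (M.gen_mem_S M.base_mem (hn _ (M.hU γ hγ))
      (Submodule.subset_span ⟨1, γ, hγ, by simp [M.U_base]⟩) fun n => ?_) hs
    refine ⟨γ.p n, _, γ.hp n, flip_le (u.e_proj n) (γ.hp n) (γ.hi n), M.rel γ hγ n, ?_⟩
    filter_upwards [γ.lo' n] with k hk
    rw [M.U_base, mul_one, one_mul, ← map_mul, hk]
  · refine M.mul_mem_S (M.gen_mem_S hγ (hn _ (Unitary.star_mem (M.hU γ hγ)))
      (by rw [(M.hU γ hγ).1]; exact h1) fun n => ?_) hs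
    exact ⟨γ.q n, _, γ.q_proj n, (γ.q_proj n).isIdempotentElem.eq, M.rel' hγ n, M.q_fix hγ n⟩

/-- excision of the base state in `A` -/
lemma excision (a : A) {ε : ℝ} (hε : 0 < ε) : ∃ z : ℂ, ∀ᶠ k in atTop,
    ‖M.ι (u.e k) * a * M.ι (u.e k) - z • M.ι (u.e k)‖ ≤ ε := by
  have h1 : ∀ x ∈ M.V, ∀ ε > 0, ∃ z : ℂ, ∀ᶠ k in atTop,
      ‖M.ι (u.e k) * x * M.ι (u.e k) - z • M.ι (u.e k)‖ ≤ ε := by
    intro x hx
    induction hx using Submodule.span_induction with
    | mem y hy =>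
      obtain ⟨b, β, hβ, rfl⟩ := hy
      intro ε hε
      obtain ⟨z, n, h1, h2⟩ := M.corner' M.base_mem hβ b hε
      refine ⟨z, ?_⟩
      filter_upwards [h2, eventually_ge_atTop n] with k h2 hk
      have he := (u.e_proj k).map M.ι
      have h3 := h2 (M.ι (u.e k)) (he.norm_le _) (by
        rw [← map_mul]
        exact congrArg _ (flip_le (u.e_proj n) (u.e_proj k) (u.e_anti hk)))
      have e1 : z • (M.ι (u.e k) * M.U β * M.ι (u.e k)) = z • M.ι (u.e k) := by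
        by_cases hβ' : u.base = β
        · rw [← hβ', M.U_base, mul_one, he.isIdempotentElem.eq]
        · simp [h1 hβ']
      rwa [e1] at h3
    | zero => exact fun ε hε => ⟨0, by simp [hε.le]⟩
    | add x y _ _ hx hy =>
      intro ε hε
      obtain ⟨z, h1⟩ := hx _ (half_pos hε)
      obtain ⟨z', h2⟩ := hy _ (half_pos hε)
      refine ⟨z + z', ?_⟩
      filter_upwards [h1, h2] with k h1 h2
      rw [mul_add, add_mul, add_smul, add_sub_add_comm]
      exact (norm_add_le _ _).trans (by linarith)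
    | smul c x _ hx =>
      intro ε hε
      obtain ⟨z, h1⟩ := hx (ε / (‖c‖ + 1)) (by positivity)
      refine ⟨c * z, ?_⟩
      filter_upwards [h1] with k h1
      rw [mul_smul_comm, smul_mul_assoc, mul_smul, ← smul_sub, norm_smul]
      refine (mul_le_mul_of_nonneg_left h1 (norm_nonneg c)).trans ?_
      rw [mul_div_assoc', div_le_iff₀ (by positivity)]
      nlinarith [norm_nonneg c]
  obtain ⟨x, hx, h2⟩ := M.mem_S a _ (half_pos hε)
  obtain ⟨z, h3⟩ := h1 x hx _ (half_pos hε)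
  refine ⟨z, ?_⟩
  filter_upwards [h2, h3] with k h2 h3
  have e : M.ι (u.e k) * a * M.ι (u.e k) - z • M.ι (u.e k) =
      M.ι (u.e k) * ((a - x) * M.ι (u.e k)) +
        (M.ι (u.e k) * x * M.ι (u.e k) - z • M.ι (u.e k)) := by
    simp only [mul_sub, sub_mul, mul_assoc]
    abel
  rw [e]
  refine (norm_add_le _ _).trans ?_
  linarith [norm_proj_mul_le ((u.e_proj k).map M.ι) ((a - x) * M.ι (u.e k))]

variable {H : Type} [NormedAddCommGroup H] [InnerProductSpace ℂ H] [CompleteSpace H]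
variable {H' : Type} [NormedAddCommGroup H'] [InnerProductSpace ℂ H'] [CompleteSpace H']

lemma state_eq {π : A →⋆ₐ[ℂ] (H →L[ℂ] H)} {π' : A →⋆ₐ[ℂ] (H' →L[ℂ] H')} {η : H} {η' : H'}
    (h1 : ‖η‖ = 1) (h1' : ‖η'‖ = 1) (h2 : ∀ k, π (M.ι (u.e k)) η = η)
    (h2' : ∀ k, π' (M.ι (u.e k)) η' = η') (a : A) : ⟪η, π a η⟫_ℂ = ⟪η', π' a η'⟫_ℂ := by
  refine eq_of_forall_dist_le fun ε hε => ?_
  obtain ⟨z, hz⟩ := M.excision a (half_pos hε)
  obtain ⟨k, hk⟩ := hz.exists
  have a1 := inner_close (NonUnitalStarAlgHom.norm_apply_le π) h1 ((u.e_proj k).map M.ι) (h2 k) a z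
  have a2 := inner_close (NonUnitalStarAlgHom.norm_apply_le π') h1' ((u.e_proj k).map M.ι)
    (h2' k) a z
  refine (dist_triangle_right _ _ z).trans ?_
  rw [dist_eq_norm, dist_eq_norm]
  linarith

lemma exists_vec {π : A →⋆ₐ[ℂ] (H →L[ℂ] H)} (h : Irr π) {ζ : H} (hζ : ‖ζ‖ = 1) :
    ∃ η : H, ‖η‖ = 1 ∧ ∀ k, π (M.ι (u.e k)) η = η := by
  suffices ∃ η : H, η ≠ 0 ∧ ∀ k, π (M.ι (u.e k)) η = η by
    obtain ⟨η, h1, h2⟩ := this
    refine ⟨((‖η‖⁻¹ : ℝ) : ℂ) • η, ?_, fun n => by rw [map_smul, h2]⟩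
    rw [norm_smul, Complex.norm_real, norm_inv, norm_norm, inv_mul_cancel₀ (norm_ne_zero_iff.2 h1)]
  by_contra hc
  push Not at hc
  have hp : ∀ α : u.Exc, ∀ η : H, (∀ n, π (M.ι (α.p n)) η = η) → η = 0 := by
    intro α η hη
    by_contra h0
    obtain ⟨k, hk⟩ := hc η h0
    refine hk ?_
    rw [← hη k, ← mul_apply_eq_comp, ← map_mul, ← map_mul, α.hi]
  have hq : ∀ α ∈ M.F, ∀ η : H, (∀ n, π (M.ι (α.q n)) η = η) → η = 0 := by
    intro α hα η hη
    have h1 := hp α (π (star (M.U α)) η) fun n => by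
      conv_rhs => rw [← hη n, ← M.conj hα]
      simp only [← mul_apply_eq_comp, ← map_mul, ← mul_assoc, (M.hU α hα).1, one_mul]
    have h2 := congrArg (π (M.U α)) h1
    rwa [← mul_apply_eq_comp, ← map_mul, (M.hU α hα).2, map_one, map_zero] at h2
  have hirr : Irr (π.comp M.ι) := by
    intro W hW hinv
    let T : Subalgebra ℂ A :=
      { carrier := {g | ∀ v ∈ W, π g v ∈ W}
        mul_mem' := fun ha hb v hv => by rw [map_mul]; exact ha _ (hb v hv)
        add_mem' := fun ha hb v hv => by rw [map_add]; exact add_mem (ha v hv) (hb v hv)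
        algebraMap_mem' := fun c v hv => by
          rw [Algebra.algebraMap_eq_smul_one, map_smul, map_one]
          exact W.smul_mem c hv }
    have hπ : Continuous π :=
      AddMonoidHomClass.continuous_of_bound π 1 (by simpa using NonUnitalStarAlgHom.norm_apply_le π)
    have hT : IsClosed (T : Set A) := by
      have : (T : Set A) = ⋂ v ∈ W, (fun g => π g v) ⁻¹' W := by
        ext g
        simp [T]
      rw [this]
      exact isClosed_biInter fun s _ => hW.preimage (by fun_prop)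
    have key : ∀ (g : A) (c : ℕ → D), (∀ n, IsStarProjection (c n)) →
        (∀ m n, m ≤ n → c m * c n = c n) → (∀ η : H, (∀ n, π (M.ι (c n)) η = η) → η = 0) →
        (∀ n, ∃ d, g * (1 - M.ι (c n)) = M.ι d) → g ∈ T := by
      intro g c h1 h2 h3 h4 v hv
      obtain ⟨η, h5, h6⟩ := exists_lim (Q := fun n => π (M.ι (c n)))
        (fun n => ((h1 n).map M.ι).map π)
        (fun m n hmn => by rw [← map_mul, ← map_mul, h2 m n hmn]) v
      rw [h3 η h6] at h5
      have h7 : Tendsto (fun n => π g (v - π (M.ι (c n)) v)) atTop (𝓝 (π g (v - 0))) :=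
        ((π g).continuous.tendsto _).comp (tendsto_const_nhds.sub h5)
      rw [sub_zero] at h7
      refine hW.mem_of_tendsto h7 (Eventually.of_forall fun n => ?_)
      obtain ⟨d, hd⟩ := h4 n
      have : π g (v - π (M.ι (c n)) v) = π (M.ι d) v := by
        rw [← hd]
        simp
      rw [this]
      exact hinv d v hv
    exact h W hW (M.gen T hT (fun d => hinv d) fun α hα =>
      ⟨key _ α.p α.hp (fun _ _ => α.p_anti) (hp α) fun n => ⟨_, M.rel α hα n⟩,
       key _ α.q α.q_proj (fun _ _ => α.q_anti) (hq α hα) fun n => ⟨_, M.rel' hα n⟩⟩)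
  obtain ⟨α, hα, η, h1, h2⟩ := u.exists_fixed M.maxi (σ := π.comp M.ι)
    (fun d => (NonUnitalStarAlgHom.norm_apply_le π _).trans (M.hι d)) hirr hζ
  exact h1 (hq α hα η h2)

include M in
lemma equiv {π : A →⋆ₐ[ℂ] (H →L[ℂ] H)} {π' : A →⋆ₐ[ℂ] (H' →L[ℂ] H')} (h : Irr π) (h' : Irr π')
    {ζ : H} (hζ : ‖ζ‖ = 1) {ζ' : H'} (hζ' : ‖ζ'‖ = 1) :
    ∃ U : H ≃ₗᵢ[ℂ] H', ∀ a v, U (π a v) = π' a (U v) := by
  obtain ⟨η, h1, h2⟩ := M.exists_vec h hζ
  obtain ⟨η', h1', h2'⟩ := M.exists_vec h' hζ'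
  obtain ⟨U, -, hU⟩ := exists_equiv (h.dense (η := η) (by rintro rfl; simp at h1))
    (h'.dense (η := η') (by rintro rfl; simp at h1')) (M.state_eq h1 h1' h2 h2')
  exact ⟨U, hU⟩

lemma simple {ρ : A →⋆ₐ[ℂ] (H →L[ℂ] H)} (hρ : Function.Injective ρ) {ξ : H} (h1 : ‖ξ‖ = 1)
    (h2 : ∀ k, ρ (M.ι (u.e k)) ξ = ξ) (h3 : DenseRange (orb ρ ξ)) (I : TwoSidedIdeal A) :
    I = ⊥ ∨ I = ⊤ := by
  by_cases hI : ∀ a ∈ I, ⟪ξ, ρ a ξ⟫_ℂ = 0
  · left
    refine eq_bot_iff.2 fun a ha => (TwoSidedIdeal.mem_bot _).2 (hρ ?_)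
    rw [map_zero]
    refine ContinuousLinearMap.ext fun v => ?_
    refine h3.induction_on (p := fun v => ρ a v = (0 : H →L[ℂ] H) v) v
      (isClosed_eq (by fun_prop) (by fun_prop)) fun b => ?_
    have := hI _ (I.mul_mem_left (star (a * b)) _ (I.mul_mem_right _ b ha))
    rw [← inner_mul, inner_self_eq_zero, map_mul] at this
    exact this
  · right
    push Not at hI
    obtain ⟨a, ha, h0⟩ := hI
    have hpos := norm_pos_iff.2 h0
    obtain ⟨z, hz⟩ := M.excision a (ε := ‖⟪ξ, ρ a ξ⟫_ℂ‖ / 3) (by positivity)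
    obtain ⟨k, hk⟩ := hz.exists
    have he := (u.e_proj k).map M.ι
    set e := M.ι (u.e k) with he'
    have a1 := inner_close (NonUnitalStarAlgHom.norm_apply_le ρ) h1 he (h2 k) a z
    have a2 : ‖⟪ξ, ρ a ξ⟫_ℂ‖ / 3 < ‖z‖ := by
      have := norm_sub_norm_le (⟪ξ, ρ a ξ⟫_ℂ) z
      linarith
    have hz0 : z ≠ 0 := by
      rintro rfl
      simp only [norm_zero] at a2
      linarith
    have a3 : ‖-(z⁻¹ • (e * a * e - z • e))‖ < 1 := by
      rw [norm_neg, norm_smul, norm_inv, inv_mul_lt_iff₀ (norm_pos_iff.2 hz0)]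
      linarith
    let y := Units.oneSub _ a3
    have a4 : (y : A) * e = z⁻¹ • (e * a * e) := by
      simp only [y, Units.val_oneSub, sub_neg_eq_add, add_mul, one_mul, smul_mul_assoc, sub_mul,
        mul_assoc, he.isIdempotentElem.eq, smul_sub, smul_smul, inv_mul_cancel₀ hz0, one_smul]
      abel
    have a5 : e ∈ I := by
      have : e = (y⁻¹ : Aˣ) * (algebraMap ℂ A z⁻¹ * (e * a * e)) := by
        rw [← Algebra.smul_def, ← a4, Units.inv_mul_cancel_left]
      rw [this]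
      exact I.mul_mem_left _ _ (I.mul_mem_left _ _ (I.mul_mem_right _ _ (I.mul_mem_left _ _ ha)))
    rw [← TwoSidedIdeal.one_mem_iff, ← map_one M.ι, ← u.sum k, map_sum]
    refine sum_mem fun i _ => ?_
    have : M.ι (u.x k i * star (u.x k i)) = M.ι (u.x k i) * e * M.ι (star (u.x k i)) := by
      rw [he', ← map_mul, ← map_mul, u.x_e]
    rw [this]
    exact I.mul_mem_right _ _ (I.mul_mem_left _ _ a5)

end Model

end Crest.Agent.R120
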