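import Crest.Agent.R120.Trace

/-!
Row 120: construction of a model with a faithful cyclic representation.
-/

set_option autoImplicit false
set_option linter.unusedSectionVars false

namespace Crest.Agent.R120

open Filter Topology Finset UHF
open scoped InnerProductSpace ComplexOrder BoundedContinuousFunction

lemma exists_gns {B : Type} [CStarAlgebra B] (ω : B →ₗ[ℂ] ℂ) (h1 : ω 1 = 1)
    (hpos : ∀ b, 0 ≤ ω (star b * b)) :
    ∃ (K : Type) (_ : NormedAddCommGroup K) (_ : InnerProductSpace ℂ K) (_ : CompleteSpace K)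
      (π : B →⋆ₐ[ℂ] (K →L[ℂ] K)) (ξ : K), ‖ξ‖ = 1 ∧ DenseRange (orb π ξ) ∧
        ∀ b, ⟪ξ, π b ξ⟫_ℂ = ω b := by
  let _ := CStarAlgebra.spectralOrder B
  have _ := CStarAlgebra.spectralOrderedRing B
  let f : B →ₚ[ℂ] ℂ := PositiveLinearMap.mk₀ ω fun x hx => by
    obtain ⟨y, rfl⟩ := CStarAlgebra.nonneg_iff_eq_star_mul_self.1 hx
    exact hpos y
  have h2 : ∀ b, f.gnsStarAlgHom b (f.toPreGNS 1 : f.GNS) = (f.toPreGNS b : f.GNS) := fun b => by
    change f.gnsNonUnitalStarAlgHom b _ = _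
    rw [PositiveLinearMap.gnsNonUnitalStarAlgHom_apply_coe]
    simp
  have h3 : ∀ b, ⟪(f.toPreGNS 1 : f.GNS), f.gnsStarAlgHom b (f.toPreGNS 1 : f.GNS)⟫_ℂ = ω b := by
    intro b
    rw [h2, UniformSpace.Completion.inner_coe, PositiveLinearMap.preGNS_inner_def]
    simp
    rfl
  refine ⟨f.GNS, inferInstance, inferInstance, inferInstance, f.gnsStarAlgHom,
    (f.toPreGNS 1 : f.GNS), ?_, ?_, h3⟩
  · have := h3 1
    rw [map_one f.gnsStarAlgHom, one_apply_eq_self, h1] at this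
    rw [norm_eq_sqrt_re_inner (𝕜 := ℂ), this]
    simp
  · refine UniformSpace.Completion.denseRange_coe.mono ?_
    rintro _ ⟨b, rfl⟩
    exact ⟨f.ofPreGNS b, h2 _⟩

lemma exists_sub {C : Type} [CStarAlgebra C] (S : StarSubalgebra ℂ C) :
    ∃ (B : Type) (_ : CStarAlgebra B) (f : B →⋆ₐ[ℂ] C), Function.Injective f ∧
      Set.range f = closure (S : Set C) := by
  have := S.isClosed_topologicalClosure
  exact ⟨S.topologicalClosure, inferInstance, S.topologicalClosure.subtype, Subtype.val_injective,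
    Subtype.range_val⟩

lemma exists_lift {D B C : Type} [Ring D] [StarRing D] [Algebra ℂ D] [CStarAlgebra B]
    [CStarAlgebra C] {f : B →⋆ₐ[ℂ] C} (hf : Function.Injective f) (κ : D →⋆ₐ[ℂ] C)
    (h : ∀ d, κ d ∈ Set.range f) : ∃ κ' : D →⋆ₐ[ℂ] B, ∀ d, f (κ' d) = κ d := by
  choose g hg using h
  exact ⟨{ toFun := g
           map_one' := hf (by simp [hg])
           map_mul' := fun a b => hf (by simp [hg])
           map_zero' := hf (by simp [hg])
           map_add' := fun a b => hf (by simp [hg])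
           commutes' := fun c => hf (by simp [hg, Algebra.algebraMap_eq_smul_one])
           map_star' := fun a => hf (by simp [hg, map_star]) }, hg⟩

variable {D : Type} [NormedRing D] [StarRing D] [CStarRing D] [NormedAlgebra ℂ D] [StarModule ℂ D]

theorem exists_model (u : UHF D) {H : Type} [NormedAddCommGroup H] [InnerProductSpace ℂ H]
    [CompleteSpace H] (j : D →⋆ₐ[ℂ] (H →L[ℂ] H)) (hj : ∀ d, ‖j d‖ = ‖d‖) :
    ∃ (A : Type) (_ : CStarAlgebra A) (M : Model u A)
      (K : Type) (_ : NormedAddCommGroup K) (_ : InnerProductSpace ℂ K) (_ : CompleteSpace K)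
      (ρ : A →⋆ₐ[ℂ] (K →L[ℂ] K)) (ξ : K), Function.Injective ρ ∧ ‖ξ‖ = 1 ∧
        (∀ k, ρ (M.ι (u.e k)) ξ = ξ) ∧ DenseRange (orb ρ ξ) := by
  obtain ⟨F, hF1, hF2, hF3⟩ := u.exists_family
  -- unit vectors in the ranges of the `e n`
  have hζ : ∀ n, ∃ ζ : H, ‖ζ‖ = 1 ∧ j (u.e n) ζ = ζ := fun n => by
    have h1 : j (u.e n) ≠ 0 := fun h => u.e_ne n (by rw [← norm_eq_zero, ← hj, h, norm_zero])
    obtain ⟨v, hv⟩ := DFunLike.ne_iff.1 h1
    refine ⟨((‖j (u.e n) v‖⁻¹ : ℝ) : ℂ) • j (u.e n) v, ?_, ?_⟩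
    · rw [norm_smul, Complex.norm_real, norm_inv, norm_norm,
        inv_mul_cancel₀ (norm_ne_zero_iff.2 hv)]
    · rw [map_smul, ← mul_apply_eq_comp, ← map_mul, (u.e_proj n).isIdempotentElem.eq]
  choose ζ hζ1 hζ2 using hζ
  -- bounded sequences
  let κ : D →⋆ₐ[ℂ] (ℕ →ᵇ (H →L[ℂ] H)) :=
    { toFun := fun d => BoundedContinuousFunction.const ℕ (j d)
      map_one' := by ext; simp
      map_mul' := fun a b => by ext; simp
      map_zero' := by ext; simp
      map_add' := fun a b => by ext; simp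
      commutes' := fun c => by ext; simp [Algebra.algebraMap_eq_smul_one]
      map_star' := fun a => by ext; simp [map_star] }
  have hκ : ∀ d n, κ d n = j d := fun _ _ => rfl
  have hw : ∀ (α : u.Exc) n, ‖j (α.w n)‖ ≤ ‖(1 : D)‖ := fun α n => by
    rw [hj, ← CStarRing.norm_mul_mem_unitary 1 (α.hw n), one_mul]
  let W : u.Exc → (ℕ →ᵇ (H →L[ℂ] H)) := fun α =>
    BoundedContinuousFunction.ofNormedAddCommGroupDiscrete (fun n => j (α.w n)) _ (hw α)
  have hW : ∀ α n, W α n = j (α.w n) := fun _ _ => rfl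
  obtain ⟨B, _, f, hf, hf'⟩ := exists_sub (StarAlgebra.adjoin ℂ (Set.range κ ∪ W '' F))
  have hG : Set.range κ ∪ W '' F ⊆ Set.range f := by
    rw [hf']
    exact (StarAlgebra.subset_adjoin _ _).trans subset_closure
  obtain ⟨κ', hκ'⟩ := exists_lift hf κ fun d => hG (.inl ⟨d, rfl⟩)
  have hW' : ∀ α, ∃ b, α ∈ F → f b = W α := fun α => by
    by_cases hα : α ∈ F
    · obtain ⟨b, hb⟩ := hG (.inr ⟨α, hα, rfl⟩)
      exact ⟨b, fun _ => hb⟩
    · exact ⟨0, fun h => (hα h).elim⟩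
  choose W' hW' using hW'
  have hfi : Isometry f := NonUnitalStarAlgHom.isometry f hf
  have hgen : ∀ T : Subalgebra ℂ B, IsClosed (T : Set B) → (∀ d, κ' d ∈ T) →
      (∀ α ∈ F, W' α ∈ T ∧ star (W' α) ∈ T) → ∀ a, a ∈ T := by
    intro T hT h1 h2 a
    have h3 : (StarAlgebra.adjoin ℂ (Set.range κ ∪ W '' F)).toSubalgebra ≤ T.map f.toAlgHom := by
      rw [StarAlgebra.adjoin_toSubalgebra]
      refine Algebra.adjoin_le ?_
      rintro g ((⟨d, rfl⟩ | ⟨α, hα, rfl⟩) | (⟨d, hd⟩ | ⟨α, hα, hd⟩))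
      · exact ⟨_, h1 d, hκ' d⟩
      · exact ⟨_, (h2 α hα).1, hW' α hα⟩
      · refine ⟨_, h1 (star d), (hκ' _).trans ?_⟩
        rw [map_star, hd, star_star]
      · refine ⟨_, (h2 α hα).2, (map_star f _).trans ?_⟩
        rw [hW' α hα, hd, star_star]
    have h4 : f a ∈ closure (f '' T) := closure_mono h3 (hf' ▸ ⟨a, rfl⟩)
    rw [(hfi.isClosedEmbedding.isClosedMap _ hT).closure_eq] at h4
    obtain ⟨b, hb, hb'⟩ := h4
    exact hf hb' ▸ hb
  -- the state
  let φ : ℕ → B →ₗ[ℂ] ℂ := fun n =>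
    { toFun := fun b => ⟪ζ n, f b n (ζ n)⟫_ℂ
      map_add' := fun a b => by simp [inner_add_right]
      map_smul' := fun c a => by simp [inner_smul_right] }
  have hφ : ∀ n b, φ n b = ⟪ζ n, f b n (ζ n)⟫_ℂ := fun _ _ => rfl
  obtain ⟨ω, hω⟩ := exists_ulim_lin φ fun b => ⟨‖f b‖, fun n => by
    refine (norm_inner_le_norm _ _).trans ?_
    simpa [hζ1] using (f b n).le_of_opNorm_le ((f b).norm_coe_le_norm n) (ζ n)⟩
  have hω0 : ∀ b, (∀ᶠ n in atTop, f b n (ζ n) = 0) → ω b = 0 := fun b hb => by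
    refine tendsto_nhds_unique (hω b) (tendsto_const_nhds.congr' ?_)
    filter_upwards [hyper_le hb] with n hn
    rw [hφ, hn, inner_zero_right]
  obtain ⟨K, _, _, _, π, ξ, h1, h2, h3⟩ := exists_gns ω
    (tendsto_nhds_unique (hω 1) (by simp [hφ, hζ1])) fun b => ge_of_tendsto' (hω _) fun n => by
      rw [hφ, map_mul, map_star, BoundedContinuousFunction.mul_apply,
        BoundedContinuousFunction.star_apply, mul_apply_eq_comp, ContinuousLinearMap.star_eq_adjoint,
        ContinuousLinearMap.adjoint_inner_right, inner_self_eq_norm_sq_to_K]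
      norm_cast
      positivity
  have h4 : ∀ b, (∀ᶠ n in atTop, f b n (ζ n) = 0) → π b ξ = 0 := fun b hb => by
    rw [← inner_self_eq_zero (𝕜 := ℂ), inner_mul, h3]
    refine hω0 _ ?_
    filter_upwards [hb] with n hn
    simp [hn]
  have h5 : ∀ b, (∀ᶠ n in atTop, f b n = 0) → π b = 0 := fun b hb => by
    refine ContinuousLinearMap.ext fun v => h2.induction_on (p := fun v => π b v = (0 : K →L[ℂ] K) v)
      v (isClosed_eq (by fun_prop) (by fun_prop)) fun c => ?_
    have := h4 (b * c) (by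
      filter_upwards [hb] with n hn
      simp [hn])
    rwa [map_mul] at this
  obtain ⟨A, _, ρ, hρ, hρ'⟩ := exists_sub π.range
  obtain ⟨π', hπ'⟩ := exists_lift hρ π fun b => hρ' ▸ subset_closure ⟨b, rfl⟩
  have hρi : Isometry ρ := NonUnitalStarAlgHom.isometry ρ hρ
  have hπc : Continuous π' :=
    AddMonoidHomClass.continuous_of_bound π' 1 (by simpa using NonUnitalStarAlgHom.norm_apply_le π')
  refine ⟨A, inferInstance,
    { F := F, base_mem := hF1, pair := hF2, maxi := hF3, ι := π'.comp κ', hι := fun d => ?_,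
      U := fun α => π' (W' α), hU := fun α hα => ?_, U_base := ?_, rel := fun α hα n => ?_,
      gen := fun T hT h6 h7 a => ?_ }, K, inferInstance, inferInstance, inferInstance, ρ, ξ, hρ, h1,
      fun k => ?_, ?_⟩
  · refine (NonUnitalStarAlgHom.norm_apply_le π' _).trans ?_
    change ‖κ' d‖ ≤ _
    rw [← NonUnitalStarAlgHom.norm_map f hf, hκ', ← hj]
    exact BoundedContinuousFunction.norm_const_le _
  · refine Unitary.map_mem π' ⟨hf ?_, hf ?_⟩
    · ext1 n
      have := congrArg j (α.hw n).1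
      simpa [map_star, hW' α hα, hW] using this
    · ext1 n
      have := congrArg j (α.hw n).2
      simpa [map_star, hW' α hα, hW] using this
  · rw [← map_one π']
    congr 1
    refine hf ?_
    ext1 n
    rw [hW' _ hF1, hW]
    simp [base]
  · refine hρ ?_
    rw [← sub_eq_zero, ← map_sub]
    have := h5 (W' α * (1 - κ' (α.p n)) - κ' (α.w n * (1 - α.p n))) (by
      filter_upwards [eventually_ge_atTop n] with m hm
      rw [← α.w_anti hm]
      simp [hW' α hα, hW, hκ', hκ])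
    rw [← this, ← hπ']
    simp
  · have h8 := hgen (T.comap π'.toAlgHom) (hT.preimage hπc) h6 fun α hα =>
      ⟨(h7 α hα).1, by simpa [map_star] using (h7 α hα).2⟩
    have h9 : ρ a ∈ closure (ρ '' T) := by
      refine closure_mono ?_ (hρ' ▸ ⟨a, rfl⟩ : ρ a ∈ closure (π.range : Set (K →L[ℂ] K)))
      rintro _ ⟨b, rfl⟩
      exact ⟨_, h8 b, hπ' b⟩
    rw [(hρi.isClosedEmbedding.isClosedMap _ hT).closure_eq] at h9
    obtain ⟨b, hb, hb'⟩ := h9
    exact hρ hb' ▸ hb
  · have := h4 (κ' (u.e k) - 1) (by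
      filter_upwards [eventually_ge_atTop k] with m hm
      have : j (u.e k) (ζ m) = ζ m := by
        rw [← hζ2 m, ← mul_apply_eq_comp, ← map_mul, u.e_anti hm]
      simp [hκ', hκ, this])
    change ρ (π' (κ' (u.e k))) ξ = ξ
    rw [hπ']
    simpa [sub_eq_zero] using this
  · refine h2.mono ?_
    rintro _ ⟨b, rfl⟩
    exact ⟨π' b, by simp [orb, hπ']⟩

end Crest.Agent.R120
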