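import Crest.Agent.R120.Hilb

/-!
Row 120: excising sequences of projections in a UHF-type pre-C⋆-algebra.
-/

set_option autoImplicit false
set_option linter.unusedSectionVars false

namespace Crest.Agent.R120

open Filter Topology Finset
open scoped InnerProductSpace

variable {D : Type} [NormedRing D] [StarRing D] [CStarRing D] [NormedAlgebra ℂ D] [StarModule ℂ D]

/-- the properties of the algebraic inductive limit of the matrix algebras `M_{2^k}` -/
structure UHF (D : Type) [NormedRing D] [StarRing D] [CStarRing D] [NormedAlgebra ℂ D]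
    [StarModule ℂ D] where
  x : (k : ℕ) → Fin (2 ^ k) → D
  e : ℕ → D
  he : ∀ k, e k = x k 0
  e_proj : ∀ k, IsStarProjection (e k)
  e_ne : ∀ k, e k ≠ 0
  e_succ : ∀ k, e k * e (k + 1) = e (k + 1)
  orth : ∀ k i j, star (x k i) * x k j = if i = j then e k else 0
  sum : ∀ k, ∑ i, x k i * star (x k i) = 1
  level : ∀ d, ∀ᶠ k in atTop, d ∈ Submodule.span ℂ {y | ∃ i j, y = x k i * star (x k j)}
  cut : ∀ (ι : Type) [Fintype ι] (a : ι → D) (δ : ℝ), 0 < δ → ∃ r y : D, IsStarProjection r ∧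
    (∀ c, Commute (∑ i, star (a i) * a i) c → Commute r c) ∧
    star y * y + (δ : ℂ) • (1 - r) = ∑ i, star (a i) * a i ∧ ∀ i, ‖a i * r‖ ^ 2 ≤ δ
  Std : ℕ → D → Prop
  std_zero : Std 0 1
  std_proj : ∀ n p, Std n p → IsStarProjection p
  std_lo : ∀ n p, Std n p → ∃ k, p * e k = e k
  std_hi : ∀ n p, Std n p → e n * p = p
  std_step : ∀ n p, Std n p → ∃ c, ∀ (r : D) (z : ℂ), IsStarProjection r → r ≠ 0 → p * r = r →
    ‖r * c * r - z • r‖ < 1 / 2 → ∃ p' t, Std (n + 1) p' ∧ p * p' = p' ∧ t ∈ unitary D ∧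
      t * (1 - p) = 1 - p ∧ r = t * p' * star t

section General
variable {R : Type*} [Ring R] [StarRing R]

lemma anti_of_succ {p : ℕ → R} (hp : ∀ n, IsStarProjection (p n))
    (h : ∀ n, p n * p (n + 1) = p (n + 1)) {m n : ℕ} (hmn : m ≤ n) : p m * p n = p n := by
  induction n, hmn using Nat.le_induction with
  | base => exact (hp m).isIdempotentElem.eq
  | succ n _ ih => rw [← h n, ← mul_assoc, ih]

lemma flip_le {p q : R} (hp : IsStarProjection p) (hq : IsStarProjection q) (h : p * q = q) :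
    q * p = q := by
  have := congrArg star h
  rwa [star_mul, hp.isSelfAdjoint.star_eq, hq.isSelfAdjoint.star_eq] at this

lemma proj_conj {p w : R} (hp : IsStarProjection p) (hw : star w * w = 1) :
    IsStarProjection (w * p * star w) := by
  refine ⟨?_, ?_⟩
  · change w * p * star w * (w * p * star w) = _
    calc _ = w * (p * (star w * w) * p) * star w := by simp only [mul_assoc]
      _ = _ := by rw [hw, mul_one, hp.isIdempotentElem.eq]
  · change star (w * p * star w) = _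
    simp [hp.isSelfAdjoint.star_eq, mul_assoc]

end General

section Normed
variable {R : Type*} [NormedRing R] [StarRing R] [CStarRing R]

lemma norm_proj_mul_le {p : R} (hp : IsStarProjection p) (a : R) : ‖p * a‖ ≤ ‖a‖ :=
  (norm_mul_le _ _).trans (mul_le_of_le_one_left (norm_nonneg _) (hp.norm_le p))

lemma norm_mul_proj_le {p : R} (hp : IsStarProjection p) (a : R) : ‖a * p‖ ≤ ‖a‖ :=
  (norm_mul_le _ _).trans (mul_le_of_le_one_right (norm_nonneg _) (hp.norm_le p))

lemma norm_proj {p : R} (hp : IsStarProjection p) (h : p ≠ 0) : ‖p‖ = 1 := by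
  have h1 := CStarRing.norm_star_mul_self (x := p)
  rw [hp.isSelfAdjoint.star_eq, hp.isIdempotentElem.eq] at h1
  have h2 := norm_pos_iff.2 h
  nlinarith

end Normed

namespace UHF
variable (u : UHF D)

lemma e_anti {m n : ℕ} (h : m ≤ n) : u.e m * u.e n = u.e n := anti_of_succ u.e_proj u.e_succ h

lemma x_e (k : ℕ) (i : Fin (2 ^ k)) : u.x k i * u.e k = u.x k i := by
  have h : u.x k i * (1 - u.e k) = 0 := by
    rw [← CStarRing.star_mul_self_eq_zero_iff, star_mul, mul_assoc, ← mul_assoc (star (u.x k i)),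
      u.orth, if_pos rfl, (u.e_proj k).mul_one_sub_self, mul_zero]
  rw [mul_sub, mul_one, sub_eq_zero] at h
  exact h.symm

/-- an excising sequence `q` linked by unitaries `w` to a sequence `p` cofinal with `e` -/
structure Exc where
  p : ℕ → D
  q : ℕ → D
  w : ℕ → D
  hp : ∀ n, IsStarProjection (p n)
  hw : ∀ n, w n ∈ unitary D
  hq : ∀ n, q n = w n * p n * star (w n)
  p_succ : ∀ n, p n * p (n + 1) = p (n + 1)
  w_succ : ∀ n, w (n + 1) * (1 - p n) = w n * (1 - p n)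
  lo : ∀ n, ∃ k, p n * u.e k = u.e k
  hi : ∀ n, u.e n * p n = p n
  exc : ∀ b, ∀ ε > 0, ∃ (z : ℂ) (n : ℕ), ‖q n * b * q n - z • q n‖ ≤ ε

variable {u}

namespace Exc
variable (α : u.Exc)

lemma p_anti {m n : ℕ} (h : m ≤ n) : α.p m * α.p n = α.p n := anti_of_succ α.hp α.p_succ h

lemma w_anti {m n : ℕ} (h : m ≤ n) : α.w n * (1 - α.p m) = α.w m * (1 - α.p m) := by
  induction n, h using Nat.le_induction with
  | base => rfl
  | succ n hmn ih =>
    have e : (1 - α.p n) * (1 - α.p m) = 1 - α.p m := by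
      rw [sub_mul, mul_sub, mul_sub, flip_le (α.hp m) (α.hp n) (α.p_anti hmn)]
      simp
    rw [← ih, ← e, ← mul_assoc, α.w_succ, mul_assoc]

lemma q_proj (n : ℕ) : IsStarProjection (α.q n) := by
  rw [α.hq]
  exact proj_conj (α.hp n) (α.hw n).1

end Exc

lemma conj_eq {R : Type*} [Ring R] [StarRing R] {w w' p : R} (hp : IsStarProjection p)
    (hw : w * star w = 1) (hw' : w' * star w' = 1) (h : w' * (1 - p) = w * (1 - p)) :
    w' * p * star w' = w * p * star w := by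
  have e : ∀ v : R, v * star v = 1 → v * p * star v = 1 - v * (1 - p) * star (v * (1 - p)) := by
    intro v hv
    rw [star_mul, hp.one_sub.isSelfAdjoint.star_eq, mul_assoc v (1 - p), ← mul_assoc (1 - p),
      hp.one_sub.isIdempotentElem.eq, sub_mul, mul_sub, one_mul, hv, mul_assoc]
    simp
  rw [e w hw, e w' hw', h]

namespace Exc
variable (α : u.Exc)

lemma q_anti {m n : ℕ} (h : m ≤ n) : α.q m * α.q n = α.q n := by
  rw [α.hq m, ← conj_eq (α.hp m) (α.hw m).2 (α.hw n).2 (α.w_anti h), α.hq n]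
  calc _ = α.w n * (α.p m * (star (α.w n) * α.w n) * α.p n) * star (α.w n) := by
        simp only [mul_assoc]
    _ = _ := by rw [(α.hw n).1, mul_one, α.p_anti h]

lemma q_anti' {m n : ℕ} (h : m ≤ n) : α.q n * α.q m = α.q n :=
  flip_le (α.q_proj m) (α.q_proj n) (α.q_anti h)

lemma q_ne (n : ℕ) : α.q n ≠ 0 := by
  intro h
  obtain ⟨k, hk⟩ := α.lo n
  have : α.p n = star (α.w n) * α.q n * α.w n := by
    rw [α.hq]
    calc _ = (star (α.w n) * α.w n) * α.p n * (star (α.w n) * α.w n) := by simp [(α.hw n).1]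
      _ = _ := by simp only [mul_assoc]
  rw [this, h] at hk
  exact u.e_ne k (by simpa using hk.symm)

lemma lo' (n : ℕ) : ∀ᶠ k in atTop, α.p n * u.e k = u.e k := by
  obtain ⟨k, hk⟩ := α.lo n
  filter_upwards [eventually_ge_atTop k] with l hl
  rw [← u.e_anti hl, ← mul_assoc, hk]

end Exc

lemma shrink {q q' : ℕ → D} (hq : ∀ n, IsStarProjection (q n)) (hq' : ∀ n, IsStarProjection (q' n))
    {a b c d : ℕ} (h : q c * q a = q c) (h' : q' b * q' d = q' d) (x : D) :
    ‖q c * x * q' d‖ ≤ ‖q a * x * q' b‖ := by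
  have e : q c * x * q' d = q c * (q a * x * q' b) * q' d := by
    conv_lhs => rw [← h, ← h']
    simp only [mul_assoc]
  rw [e]
  exact (norm_mul_proj_le (hq' d) _).trans (norm_proj_mul_le (hq c) _)

lemma shrink_exc {q r : D} (hr : IsStarProjection r) (h : q * r = r) (h' : r * q = r) (b : D)
    (z : ℂ) : ‖r * b * r - z • r‖ ≤ ‖q * b * q - z • q‖ := by
  have e : r * b * r - z • r = r * (q * b * q - z • q) * r := by
    rw [mul_sub, sub_mul, mul_smul_comm, smul_mul_assoc, h', hr.isIdempotentElem.eq,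
      ← mul_assoc, ← mul_assoc, h', mul_assoc (r * b), h]
  rw [e]
  exact (norm_mul_proj_le hr _).trans (norm_proj_mul_le hr _)

lemma Exc.exc' (α : u.Exc) (b : D) {ε : ℝ} (hε : 0 < ε) :
    ∃ z : ℂ, ∀ᶠ n in atTop, ‖α.q n * b * α.q n - z • α.q n‖ ≤ ε := by
  obtain ⟨z, n, h⟩ := α.exc b ε hε
  refine ⟨z, ?_⟩
  filter_upwards [eventually_ge_atTop n] with m hm
  exact (shrink_exc (α.q_proj m) (α.q_anti hm) (α.q_anti' hm) b z).trans h

/-- excision is a linear condition -/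
lemma exc_span {q : ℕ → D} (hq : ∀ n, IsStarProjection (q n))
    (ha : ∀ m n, m ≤ n → q m * q n = q n) {S : Set D}
    (hS : ∀ b ∈ S, ∀ ε > 0, ∃ (z : ℂ) (n : ℕ), ‖q n * b * q n - z • q n‖ ≤ ε) {b : D}
    (hb : b ∈ Submodule.span ℂ S) :
    ∀ ε > 0, ∃ (z : ℂ) (n : ℕ), ‖q n * b * q n - z • q n‖ ≤ ε := by
  induction hb using Submodule.span_induction with
  | mem b hb => exact hS b hb
  | zero => exact fun ε hε => ⟨0, 0, by simpa using hε.le⟩
  | add a b _ _ iha ihb =>
    intro ε hε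
    obtain ⟨z, n, h⟩ := iha _ (half_pos hε)
    obtain ⟨z', n', h'⟩ := ihb _ (half_pos hε)
    refine ⟨z + z', max n n', ?_⟩
    have h1 := shrink_exc (hq _) (ha _ _ (le_max_left n n'))
      (flip_le (hq _) (hq _) (ha _ _ (le_max_left n n'))) a z
    have h2 := shrink_exc (hq _) (ha _ _ (le_max_right n n'))
      (flip_le (hq _) (hq _) (ha _ _ (le_max_right n n'))) b z'
    rw [mul_add, add_mul, add_smul, add_sub_add_comm]
    refine (norm_add_le _ _).trans ?_
    linarith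
  | smul c a _ ih =>
    intro ε hε
    obtain ⟨z, n, h⟩ := ih (ε / (‖c‖ + 1)) (by positivity)
    refine ⟨c * z, n, ?_⟩
    rw [mul_smul_comm, smul_mul_assoc, mul_smul, ← smul_sub, norm_smul]
    refine (mul_le_mul_of_nonneg_left h (norm_nonneg c)).trans ?_
    rw [mul_div_assoc', div_le_iff₀ (by positivity)]
    nlinarith [norm_nonneg c]

variable (u) in
/-- the base sequence -/
def base : u.Exc where
  p := u.e
  q := u.e
  w _ := 1
  hp := u.e_proj
  hw _ := one_mem _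
  hq _ := by simp
  p_succ := u.e_succ
  w_succ _ := rfl
  lo n := ⟨n, (u.e_proj n).isIdempotentElem.eq⟩
  hi n := (u.e_proj n).isIdempotentElem.eq
  exc b := by
    obtain ⟨k, hk⟩ := (u.level b).exists
    refine exc_span u.e_proj (fun _ _ => u.e_anti) ?_ hk
    rintro _ ⟨i, j, rfl⟩ ε hε
    have h1 : ∀ i, u.e k * u.x k i = if 0 = i then u.e k else 0 := fun i => by
      rw [← u.orth, ← u.he, (u.e_proj k).isSelfAdjoint.star_eq]
    have h2 : ∀ i, star (u.x k i) * u.e k = if i = 0 then u.e k else 0 := fun i => by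
      rw [← u.orth, ← u.he]
    refine ⟨if 0 = i ∧ j = 0 then 1 else 0, k, ?_⟩
    rw [← mul_assoc, mul_assoc, h1, h2]
    by_cases hi : 0 = i <;> by_cases hj : j = 0 <;>
      simp [hi, hj, hε.le, (u.e_proj k).isIdempotentElem.eq]

/-- disjointness -/
def Orth (α β : u.Exc) : Prop := ∀ b, ∀ ε > 0, ∃ n, ‖α.q n * b * β.q n‖ ≤ ε

lemma Orth.symm {α β : u.Exc} (h : Orth α β) : Orth β α := by
  intro b ε hε
  obtain ⟨n, hn⟩ := h (star b) ε hε
  refine ⟨n, ?_⟩
  rw [← norm_star] at hn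
  simpa [(α.q_proj n).isSelfAdjoint.star_eq, (β.q_proj n).isSelfAdjoint.star_eq, mul_assoc]
    using hn

lemma not_orth_self (α : u.Exc) : ¬ Orth α α := by
  intro h
  obtain ⟨n, hn⟩ := h 1 (1 / 2) (by norm_num)
  rw [mul_one, (α.q_proj n).isIdempotentElem.eq, norm_proj (α.q_proj n) (α.q_ne n)] at hn
  norm_num at hn

variable (u) in
lemma exists_family : ∃ F : Set u.Exc, u.base ∈ F ∧ F.Pairwise Orth ∧ ∀ γ, ∃ α ∈ F, ¬ Orth α γ := by
  obtain ⟨F, h1, h2⟩ := zorn_subset_nonempty {S : Set u.Exc | S.Pairwise Orth}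
    (fun c hc hch _ => ⟨⋃₀ c, (Set.pairwise_sUnion hch.directedOn).2 fun s hs => hc hs,
      fun s hs => Set.subset_sUnion_of_mem hs⟩) {u.base} (Set.pairwise_singleton _ _)
  refine ⟨F, h1 rfl, h2.1, fun γ => ?_⟩
  by_contra hc
  push Not at hc
  have h3 : (insert γ F).Pairwise Orth :=
    h2.1.insert fun α hα _ => ⟨(hc α hα).symm, hc α hα⟩
  exact not_orth_self γ (hc γ (h2.2 h3 (Set.subset_insert _ _) (Set.mem_insert _ _)))

variable {H : Type} [NormedAddCommGroup H] [InnerProductSpace ℂ H] [CompleteSpace H]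

lemma step (u : UHF D) {σ : D →⋆ₐ[ℂ] (H →L[ℂ] H)} (h : Irr σ) {η : H} (hη : ‖η‖ = 1) {q : D}
    (hq : IsStarProjection q) (hqη : σ q η = η) {ι : Type} [Fintype ι] (b : ι → D) {ε : ℝ}
    (hε : 0 < ε) : ∃ r, IsStarProjection r ∧ q * r = r ∧ ‖η - σ r η‖ ≤ ε ∧
      ∀ i, ∃ z : ℂ, ‖r * b i * r - z • r‖ ≤ ε := by
  set s := min ε 1 / 2 with hs
  have hs0 : 0 < s := by positivity
  have hs1 : s ≤ 1 / 2 := by
    have := min_le_right ε 1
    linarith
  have hs2 : 2 * s ≤ ε := by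
    have := min_le_left ε 1
    linarith
  set N : ℝ := (Fintype.card ι : ℝ) with hN
  have hN0 : 0 ≤ N := Nat.cast_nonneg _
  set δ := ε * s / (N + 1) with hδ
  have hδ0 : 0 < δ := by positivity
  choose c l m hb hl hm using fun i => h.exists_split hη (b i) hδ0
  let a : (ι ⊕ ι) ⊕ Unit → D := Sum.elim (Sum.elim (fun i => l i * q) fun i => m i * q)
    fun _ => 1 - q
  obtain ⟨r, y, hr, hc, hy, ha⟩ := u.cut _ a (s ^ 2) (by positivity)
  have ha' : ∀ i, ‖a i * r‖ ≤ s := fun i => le_of_sq_le_sq (ha i) hs0.le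
  have hcq : Commute r q := by
    refine hc q (Commute.sum_left _ _ _ fun i _ => ?_)
    have e : ∀ z : D, Commute (star (z * q) * (z * q)) q := fun z => by
      rw [star_mul, hq.isSelfAdjoint.star_eq]
      change q * star z * (z * q) * q = q * (q * star z * (z * q))
      rw [mul_assoc _ _ q, mul_assoc z, hq.isIdempotentElem.eq, ← mul_assoc q, ← mul_assoc q,
        hq.isIdempotentElem.eq]
    rcases i with (i | i) | i
    · exact e _
    · exact e _
    · change Commute (star (1 - q) * (1 - q)) q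
      rw [hq.one_sub.isSelfAdjoint.star_eq]
      exact ((Commute.one_left q).sub_left (Commute.refl q)).mul_left
        ((Commute.one_left q).sub_left (Commute.refl q))
  have hqr : q * r = r := by
    have h1 : IsStarProjection ((1 - q) * r) :=
      hq.one_sub.mul hr ((Commute.one_left r).sub_left hcq.symm)
    have h2 : (1 - q) * r = 0 := by
      by_contra h3
      have h4 := ha' (.inr ())
      change ‖(1 - q) * r‖ ≤ s at h4
      rw [norm_proj h1 h3] at h4
      linarith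
    rw [sub_mul, one_mul, sub_eq_zero] at h2
    exact h2.symm
  refine ⟨r, hr, hqr, ?_, fun i => ⟨c i, ?_⟩⟩
  · have h1 := congrArg (fun d => (⟪η, σ d η⟫_ℂ).re) hy
    have h2 : ∀ d, (⟪η, σ (star d * d) η⟫_ℂ).re = ‖σ d η‖ ^ 2 := fun d => by
      rw [← inner_mul]
      exact inner_self_eq_norm_sq (𝕜 := ℂ) _
    have h3 : (⟪η, σ (1 - r) η⟫_ℂ).re = ‖η - σ r η‖ ^ 2 := by
      have := h2 (1 - r)
      rw [hr.one_sub.isSelfAdjoint.star_eq, hr.one_sub.isIdempotentElem.eq] at this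
      simpa using this
    simp only [map_add, map_smul, map_sum, add_apply, smul_apply, _root_.sum_apply, inner_add_right,
      inner_smul_right, inner_sum, Complex.add_re, Complex.re_sum, h2, Complex.re_ofReal_mul, h3,
      Fintype.sum_sum_type] at h1
    have h4 : ∀ d, σ (d * q) η = σ d η := fun d => by rw [map_mul, mul_apply_eq_comp, hqη]
    have h5 : σ (1 - q) η = 0 := by simp [hqη]
    simp only [a, Sum.elim_inl, Sum.elim_inr, h4, h5] at h1
    have h6 : ∑ i, ‖σ (l i) η‖ ^ 2 ≤ N * δ ^ 2 := by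
      rw [hN, ← nsmul_eq_mul, ← card_univ, ← sum_const]
      exact sum_le_sum fun i _ => pow_le_pow_left₀ (norm_nonneg _) (hl i) 2
    have h7 : ∑ i, ‖σ (m i) η‖ ^ 2 ≤ N * δ ^ 2 := by
      rw [hN, ← nsmul_eq_mul, ← card_univ, ← sum_const]
      exact sum_le_sum fun i _ => pow_le_pow_left₀ (norm_nonneg _) (hm i) 2
    have h8 : 2 * N * δ ^ 2 ≤ (ε * s) ^ 2 := by
      rw [hδ, div_pow, mul_div_assoc', div_le_iff₀ (by positivity)]
      nlinarith [sq_nonneg (ε * s), mul_nonneg (sq_nonneg (ε * s)) (sq_nonneg N)]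
    have h9 : s ^ 2 * ‖η - σ r η‖ ^ 2 ≤ s ^ 2 * ε ^ 2 := by
      simp only [norm_zero, ne_eq, OfNat.ofNat_ne_zero, not_false_eq_true, zero_pow, sum_const_zero,
        add_zero] at h1
      nlinarith [sq_nonneg ‖σ y η‖]
    exact le_of_sq_le_sq (le_of_mul_le_mul_left h9 (by positivity)) hε.le
  · have h1 : r * b i * r - c i • r = r * (l i * q * r) + star (m i * q * r) * r := by
      rw [hb i, mul_assoc (l i), mul_assoc (m i), hqr, star_mul, hr.isSelfAdjoint.star_eq]
      simp only [mul_add, add_mul, mul_smul_comm, smul_mul_assoc, mul_one,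
        hr.isIdempotentElem.eq, mul_assoc]
      abel
    rw [h1]
    have h2 := (norm_proj_mul_le hr _).trans (ha' (.inl (.inl i)))
    have h3 := norm_mul_proj_le hr (star (m i * q * r))
    rw [norm_star] at h3
    have h4 := h3.trans (ha' (.inl (.inr i)))
    refine (norm_add_le _ _).trans ?_
    change ‖r * (l i * q * r)‖ ≤ s at h2
    linarith

lemma exists_exc (u : UHF D) {σ : D →⋆ₐ[ℂ] (H →L[ℂ] H)} (h : Irr σ) {ζ : H} (hζ : ‖ζ‖ = 1) :
    ∃ (γ : u.Exc) (η : H), ‖η‖ = 1 ∧ ∀ n, σ (γ.q n) η = η := by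
  obtain ⟨g₀, hg₀⟩ := exists_surjective_nat (Σ k : ℕ, Fin (2 ^ k) × Fin (2 ^ k))
  let g : ℕ → D := fun n => u.x (g₀ n).1 (g₀ n).2.1 * star (u.x (g₀ n).1 (g₀ n).2.2)
  let P : ℕ → D × D → Prop := fun n s => u.Std n s.1 ∧ s.2 ∈ unitary D ∧
    1 / 2 + (1 / 2 : ℝ) ^ (n + 1) ≤ ‖σ (s.2 * s.1 * star s.2) ζ‖
  have hstep : ∀ n (s : {s // P n s}), ∃ s' : {s // P (n + 1) s}, s.1.1 * s'.1.1 = s'.1.1 ∧
      s'.1.2 * (1 - s.1.1) = s.1.2 * (1 - s.1.1) ∧ ∀ i < n, ∃ z : ℂ,
        ‖(s'.1.2 * s'.1.1 * star s'.1.2) * g i * (s'.1.2 * s'.1.1 * star s'.1.2) -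
          z • (s'.1.2 * s'.1.1 * star s'.1.2)‖ ≤ (1 / 2) ^ (n + 2) := by
    rintro n ⟨⟨p, w⟩, hp, hw, hn⟩
    simp only at hp hw hn ⊢
    have hp' := u.std_proj n p hp
    obtain ⟨c, hc⟩ := u.std_step n p hp
    set q := w * p * star w with hq
    have hq' : IsStarProjection q := proj_conj hp' hw.1
    have h1 : 0 < ‖σ q ζ‖ := lt_of_lt_of_le (by positivity) hn
    have h2 : ‖σ q ζ‖ ≤ 1 := by
      simpa [hζ] using (σ q).le_of_opNorm_le ((hq'.map σ).norm_le _) ζ
    set η := ((‖σ q ζ‖⁻¹ : ℝ) : ℂ) • σ q ζ with hη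
    have hη1 : ‖η‖ = 1 := by
      rw [hη, norm_smul, Complex.norm_real, norm_inv, norm_norm, inv_mul_cancel₀ h1.ne']
    have hη2 : σ q η = η := by
      rw [hη, map_smul, ← mul_apply_eq_comp, ← map_mul, hq'.isIdempotentElem.eq]
    obtain ⟨r, hr, hqr, hrη, hb⟩ := u.step h hη1 hq' hη2
      (fun o : Option (Fin n) => o.elim (w * c * star w) fun i => g i)
      (ε := (1 / 2) ^ (n + 2)) (by positivity)
    have hε : (1 / 2 : ℝ) ^ (n + 2) < 1 / 2 := by
      rw [pow_add]
      nlinarith [pow_le_one₀ (show (0 : ℝ) ≤ 1 / 2 by norm_num) (show (1 / 2 : ℝ) ≤ 1 by norm_num)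
        (n := n), pow_pos (show (0 : ℝ) < 1 / 2 by norm_num) n]
    have hr0 : r ≠ 0 := by
      rintro rfl
      simp only [map_zero, zero_apply, sub_zero, hη1] at hrη
      linarith
    have hww : ∀ z : D, star w * (w * z) = z := fun z => by rw [← mul_assoc, hw.1, one_mul]
    have hww' : ∀ z : D, w * (star w * z) = z := fun z => by rw [← mul_assoc, hw.2, one_mul]
    obtain ⟨z, hz⟩ := hb none
    obtain ⟨p', t, h3, h4, h5, h6, h7⟩ := hc (star w * r * w) z
      (by simpa using proj_conj (w := star w) hr (by simpa using hw.2))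
      (fun h0 => hr0 (by
        have := congrArg (fun d => w * d * star w) h0
        simpa [mul_assoc, hww', hw.2] using this))
      (by
        conv_rhs => rw [← hqr, hq]
        simp only [mul_assoc, hww])
      (by
        have e : star w * r * w * c * (star w * r * w) - z • (star w * r * w) =
            star w * (r * (w * c * star w) * r - z • r) * w := by
          simp only [mul_sub, sub_mul, mul_assoc, mul_smul_comm, smul_mul_assoc]
        rw [e, CStarRing.norm_mul_mem_unitary _ hw,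
          CStarRing.norm_mem_unitary_mul _ (Unitary.star_mem hw)]
        exact lt_of_le_of_lt hz hε)
    have h8 : w * t * p' * star (w * t) = r := by
      calc _ = w * (t * p' * star t) * star w := by simp only [star_mul, mul_assoc]
        _ = r := by rw [← h7]; simp [mul_assoc, hww', hw.2]
    refine ⟨⟨(p', w * t), h3, mul_mem hw h5, ?_⟩, h4, by simp only [mul_assoc, h6], fun i hi => ?_⟩
    · simp only [h8]
      have e1 : σ q ζ = (‖σ q ζ‖ : ℂ) • η := by
        rw [hη, smul_smul, ← Complex.ofReal_mul, mul_inv_cancel₀ h1.ne']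
        simp
      have e2 : σ r ζ = σ r (σ q ζ) := by
        rw [← mul_apply_eq_comp, ← map_mul, flip_le hq' hr hqr]
      have e3 : ‖σ q ζ - σ r ζ‖ ≤ (1 / 2) ^ (n + 2) := by
        rw [e2, e1, map_smul, ← smul_sub, norm_smul, Complex.norm_real, norm_norm]
        exact (mul_le_of_le_one_left (norm_nonneg _) h2).trans hrη
      have e4 := norm_sub_norm_le (σ q ζ) (σ r ζ)
      have e5 : (1 / 2 : ℝ) ^ (n + 1) = 2 * (1 / 2) ^ (n + 2) := by ring
      linarith
    · simp only [h8]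
      exact hb (some ⟨i, hi⟩)
  choose f hf using hstep
  let s : ∀ n, {s // P n s} := fun n => Nat.rec ⟨(1, 1), u.std_zero, one_mem _, by
    simp [hζ]; norm_num⟩ f n
  have hs : ∀ n, s (n + 1) = f n (s n) := fun _ => rfl
  have hproj : ∀ n, IsStarProjection (s n).1.1 := fun n => u.std_proj n _ (s n).2.1
  let γ₀ : ∀ _ : (∀ b, ∀ ε > 0, ∃ (z : ℂ) (n : ℕ),
      ‖((s n).1.2 * (s n).1.1 * star (s n).1.2) * b * ((s n).1.2 * (s n).1.1 * star (s n).1.2) -
        z • ((s n).1.2 * (s n).1.1 * star (s n).1.2)‖ ≤ ε), u.Exc := fun hh =>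
    { p := fun n => (s n).1.1
      q := fun n => (s n).1.2 * (s n).1.1 * star (s n).1.2
      w := fun n => (s n).1.2
      hp := hproj
      hw := fun n => (s n).2.2.1
      hq := fun _ => rfl
      p_succ := fun n => (hf n (s n)).1
      w_succ := fun n => (hf n (s n)).2.1
      lo := fun n => u.std_lo n _ (s n).2.1
      hi := fun n => u.std_hi n _ (s n).2.1
      exc := hh }
  have hq : ∀ n, IsStarProjection ((s n).1.2 * (s n).1.1 * star (s n).1.2) := fun n =>
    proj_conj (hproj n) (s n).2.2.1.1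
  have hqa : ∀ m n, m ≤ n → ((s m).1.2 * (s m).1.1 * star (s m).1.2) *
      ((s n).1.2 * (s n).1.1 * star (s n).1.2) = (s n).1.2 * (s n).1.1 * star (s n).1.2 := by
    intro m n hmn
    refine anti_of_succ hq (fun n => ?_) hmn
    rw [← conj_eq (hproj n) (s n).2.2.1.2 (s (n + 1)).2.2.1.2 (hf n (s n)).2.1]
    calc _ = (s (n + 1)).1.2 * ((s n).1.1 * (star (s (n + 1)).1.2 * (s (n + 1)).1.2) *
          (s (n + 1)).1.1) * star (s (n + 1)).1.2 := by simp only [mul_assoc]
      _ = _ := by rw [(s (n + 1)).2.2.1.1, mul_one, hs, (hf n (s n)).1]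
  let γ := γ₀ fun b => by
    obtain ⟨k, hk⟩ := (u.level b).exists
    refine exc_span hq hqa ?_ hk
    rintro _ ⟨i, j, rfl⟩ ε hε
    obtain ⟨m, hm⟩ := hg₀ ⟨k, i, j⟩
    obtain ⟨n, hn1, hn2⟩ := ((eventually_gt_atTop m).and
      ((tendsto_pow_atTop_nhds_zero_of_lt_one (r := (1 / 2 : ℝ)) (by norm_num)
        (by norm_num)).eventually (ge_mem_nhds hε))).exists
    obtain ⟨z, hz⟩ := (hf n (s n)).2.2 m hn1
    refine ⟨z, n + 1, ?_⟩
    have e : g m = u.x k i * star (u.x k j) := by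
      simp only [g]
      rw [hm]
    rw [e] at hz
    refine hz.trans (le_trans ?_ hn2)
    exact pow_le_pow_of_le_one (by norm_num) (by norm_num) (by omega)
  obtain ⟨η, hη, hη'⟩ := exists_lim (Q := fun n => σ (γ.q n)) (fun n => (γ.q_proj n).map σ)
    (fun m n hmn => by rw [← map_mul, γ.q_anti hmn]) ζ
  have h1 : 1 / 2 ≤ ‖η‖ := ge_of_tendsto' hη.norm fun n =>
    le_trans (le_add_of_nonneg_right (by positivity)) (s n).2.2.2
  have h2 : ‖η‖ ≠ 0 := by linarith [show ‖η‖ ≠ 0 from by linarith]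
  refine ⟨γ, ((‖η‖⁻¹ : ℝ) : ℂ) • η, ?_, fun n => by rw [map_smul, hη']⟩
  rw [norm_smul, Complex.norm_real, norm_inv, norm_norm, inv_mul_cancel₀ h2]

lemma inner_close {σ : D →⋆ₐ[ℂ] (H →L[ℂ] H)} (hσ : ∀ d, ‖σ d‖ ≤ ‖d‖) {η : H} (hη : ‖η‖ = 1)
    {q : D} (hq : IsStarProjection q) (hqη : σ q η = η) (b : D) (z : ℂ) :
    ‖⟪η, σ b η⟫_ℂ - z‖ ≤ ‖q * b * q - z • q‖ := by
  have e : ⟪η, σ b η⟫_ℂ - z = ⟪η, σ (q * b * q - z • q) η⟫_ℂ := by
    rw [map_sub, map_smul, sub_apply, smul_apply, hqη, inner_sub_right, inner_smul_right,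
      inner_self_eq_norm_sq_to_K, hη, mul_assoc]
    conv_rhs => rw [← hq.isSelfAdjoint.star_eq, ← inner_mul, hq.isSelfAdjoint.star_eq, hqη,
      map_mul, mul_apply_eq_comp, hqη]
    simp
  rw [e]
  refine (norm_inner_le_norm _ _).trans ?_
  simpa [hη] using (σ _).le_of_opNorm_le (hσ (q * b * q - z • q)) η

/-- every irreducible representation sees a member of a maximal family -/
lemma exists_fixed (u : UHF D) {F : Set u.Exc} (hF : ∀ γ, ∃ α ∈ F, ¬ Orth α γ)
    {σ : D →⋆ₐ[ℂ] (H →L[ℂ] H)} (hσ : ∀ d, ‖σ d‖ ≤ ‖d‖) (h : Irr σ) {ζ : H} (hζ : ‖ζ‖ = 1) :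
    ∃ α ∈ F, ∃ η : H, η ≠ 0 ∧ ∀ n, σ (α.q n) η = η := by
  obtain ⟨γ, η, hη, hγ⟩ := u.exists_exc h hζ
  obtain ⟨α, hα, ho⟩ := hF γ
  simp only [Orth, not_forall, not_exists, not_le] at ho
  obtain ⟨b, ε, hε, ho⟩ := ho
  obtain ⟨θ, h1, h2⟩ := exists_lim (Q := fun n => σ (α.q n)) (fun n => (α.q_proj n).map σ)
    (fun m n hmn => by rw [← map_mul, α.q_anti hmn]) (σ b η)
  refine ⟨α, hα, θ, ?_, h2⟩
  have h3 : ∀ m, ε / 2 ≤ ‖σ (α.q m) (σ b η)‖ := by
    intro m
    obtain ⟨z, hz⟩ := γ.exc' (star (α.q m * b) * (α.q m * b)) (ε := ε ^ 2 / 4) (by positivity)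
    obtain ⟨n, hn1, hn2⟩ := (hz.and (eventually_ge_atTop m)).exists
    have a1 := (inner_close hσ hη (γ.q_proj n) (hγ n) _ z).trans hn1
    have a2 : ε ≤ ‖α.q m * b * γ.q n‖ := (ho n).le.trans
      (shrink α.q_proj γ.q_proj (α.q_anti' hn2) (γ.q_proj n).isIdempotentElem.eq b)
    have a3 : ‖γ.q n * (star (α.q m * b) * (α.q m * b)) * γ.q n‖ = ‖α.q m * b * γ.q n‖ ^ 2 := by
      rw [sq, ← CStarRing.norm_star_mul_self, star_mul _ (γ.q n), (γ.q_proj n).isSelfAdjoint.star_eq]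
      simp only [mul_assoc]
    have a4 := norm_sub_norm_le (γ.q n * (star (α.q m * b) * (α.q m * b)) * γ.q n) (z • γ.q n)
    rw [a3, norm_smul, norm_proj (γ.q_proj n) (γ.q_ne n), mul_one] at a4
    rw [← inner_mul, inner_self_eq_norm_sq_to_K, map_mul, mul_apply_eq_comp] at a1
    have a5 := norm_sub_norm_le z ((‖σ (α.q m) (σ b η)‖ : ℂ) ^ 2)
    rw [norm_sub_rev, norm_pow, Complex.norm_real, norm_norm] at a5
    have a6 : ‖(‖σ (α.q m) (σ b η)‖ : ℂ) ^ 2 - z‖ ≤ ε ^ 2 / 4 := a1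
    refine le_of_sq_le_sq ?_ (norm_nonneg _)
    nlinarith
  have h4 : ε / 2 ≤ ‖θ‖ := ge_of_tendsto' h1.norm h3
  rintro rfl
  rw [norm_zero] at h4
  linarith

end UHF

end Crest.Agent.R120
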