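import Mathlib

/-!
Row 120: Hilbert space lemmas (Schur's lemma, uniqueness of cyclic representations, density).
-/

set_option autoImplicit false
set_option linter.unusedSectionVars false

namespace Crest.Agent.R120

open Filter Topology
open scoped InnerProductSpace

variable {D : Type} [Ring D] [StarRing D] [Algebra ℂ D] [StarModule ℂ D]
variable {H : Type} [NormedAddCommGroup H] [InnerProductSpace ℂ H] [CompleteSpace H]
variable {H' : Type} [NormedAddCommGroup H'] [InnerProductSpace ℂ H'] [CompleteSpace H']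

/-- no nontrivial closed invariant subspace -/
def Irr (σ : D →⋆ₐ[ℂ] (H →L[ℂ] H)) : Prop :=
  ∀ V : Submodule ℂ H, IsClosed (V : Set H) → (∀ a : D, ∀ v ∈ V, σ a v ∈ V) → V = ⊥ ∨ V = ⊤

lemma inner_star (σ : D →⋆ₐ[ℂ] (H →L[ℂ] H)) (a : D) (x y : H) :
    ⟪x, σ (star a) y⟫_ℂ = ⟪σ a x, y⟫_ℂ := by
  rw [map_star, ContinuousLinearMap.star_eq_adjoint, ContinuousLinearMap.adjoint_inner_right]

lemma inner_mul (σ : D →⋆ₐ[ℂ] (H →L[ℂ] H)) (a b : D) (x y : H) :
    ⟪σ a x, σ b y⟫_ℂ = ⟪x, σ (star a * b) y⟫_ℂ := by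
  rw [map_mul, mul_apply_eq_comp, inner_star]

lemma Irr.ker_dichotomy {σ : D →⋆ₐ[ℂ] (H →L[ℂ] H)} (h : Irr σ) {T : H →L[ℂ] H}
    (hT : ∀ a, Commute T (σ a)) : T = 0 ∨ ∀ v, T v = 0 → v = 0 := by
  rcases h T.ker T.isClosed_ker (fun a v hv => by
    have h1 : T v = 0 := hv
    change T (σ a v) = 0
    rw [← mul_apply_eq_comp, (hT a).eq, mul_apply_eq_comp, h1, map_zero]) with h1 | h1
  · right
    intro v hv
    have : v ∈ T.ker := hv
    rwa [h1, Submodule.mem_bot] at this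
  · left
    ext v
    have : v ∈ T.ker := h1 ▸ Submodule.mem_top
    exact this

lemma Irr.schur_sa {σ : D →⋆ₐ[ℂ] (H →L[ℂ] H)} (h : Irr σ) {T : H →L[ℂ] H} (hs : IsSelfAdjoint T)
    (hT : ∀ a, Commute T (σ a)) : ∃ c : ℝ, T = algebraMap ℝ _ c := by
  by_cases h1 : (spectrum ℝ T).Subsingleton
  · by_cases h2 : (spectrum ℝ T).Nonempty
    · obtain ⟨c, hc⟩ := h2
      refine ⟨c, ?_⟩
      rw [← cfc_const c T, ← cfc_id' ℝ T]
      conv_rhs => rw [cfc_id' ℝ T]
      exact cfc_congr fun x hx => h1 hx hc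
    · refine ⟨0, ?_⟩
      rw [← cfc_const (0 : ℝ) T, ← cfc_id' ℝ T]
      conv_rhs => rw [cfc_id' ℝ T]
      exact cfc_congr fun x hx => (h2 ⟨x, hx⟩).elim
  · exfalso
    rw [Set.not_subsingleton_iff] at h1
    have : ∃ s ∈ spectrum ℝ T, ∃ t ∈ spectrum ℝ T, s < t := by
      obtain ⟨s, hs, t, ht, hst⟩ := h1
      rcases lt_or_gt_of_ne hst with h2 | h2
      · exact ⟨s, hs, t, ht, h2⟩
      · exact ⟨t, ht, s, hs, h2⟩
    obtain ⟨s, hs', t, ht, hst⟩ := this
    let f : ℝ → ℝ := fun x => max 0 (x - (s + t) / 2)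
    let g : ℝ → ℝ := fun x => max 0 ((s + t) / 2 - x)
    have hf : Continuous f := by fun_prop
    have hg : Continuous g := by fun_prop
    have hfg : cfc f T * cfc g T = 0 := by
      rw [← cfc_mul f g T, ← cfc_zero ℝ T]
      refine cfc_congr fun x _ => ?_
      simp only [f, g, Pi.zero_apply]
      rcases le_total x ((s + t) / 2) with h2 | h2
      · rw [max_eq_left (by linarith), zero_mul]
      · rw [max_eq_left (a := 0) (b := (s + t) / 2 - x) (by linarith), mul_zero]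
    have hf0 : cfc f T ≠ 0 := fun h0 => by
      have := norm_apply_le_norm_cfc f T ht
      rw [h0, norm_zero, Real.norm_eq_abs] at this
      have h3 : f t = t - (s + t) / 2 := max_eq_right (by linarith)
      rw [h3, abs_of_pos (by linarith)] at this
      linarith
    have hg0 : cfc g T ≠ 0 := fun h0 => by
      have := norm_apply_le_norm_cfc g T hs'
      rw [h0, norm_zero, Real.norm_eq_abs] at this
      have h3 : g s = (s + t) / 2 - s := max_eq_right (by linarith)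
      rw [h3, abs_of_pos (by linarith)] at this
      linarith
    rcases h.ker_dichotomy (fun a => (hT a).cfc_real f) with h2 | h2
    · exact hf0 h2
    · refine hg0 (ContinuousLinearMap.ext fun v => h2 _ ?_)
      rw [← mul_apply_eq_comp, hfg]
      rfl

lemma Irr.schur {σ : D →⋆ₐ[ℂ] (H →L[ℂ] H)} (h : Irr σ) {T : H →L[ℂ] H}
    (hT : ∀ a, Commute T (σ a)) : ∃ c : ℂ, ∀ v, T v = c • v := by
  have hT' : ∀ a, Commute (star T) (σ a) := fun a => by
    have := (hT (star a)).star_star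
    rwa [← map_star, star_star] at this
  obtain ⟨x, hx⟩ := h.schur_sa (T := (realPart T : H →L[ℂ] H)) (realPart T).2 fun a => by
    rw [realPart_apply_coe]
    exact ((hT a).add_left (hT' a)).smul_left _
  obtain ⟨y, hy⟩ := h.schur_sa (T := (imaginaryPart T : H →L[ℂ] H)) (imaginaryPart T).2 fun a => by
    rw [imaginaryPart_apply_coe]
    exact (((hT a).sub_left (hT' a)).smul_left _).smul_left _
  refine ⟨x + Complex.I * y, fun v => ?_⟩
  rw [← realPart_add_I_smul_imaginaryPart T, hx, hy]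
  simp [Algebra.algebraMap_eq_smul_one, add_smul, mul_smul]

/-- the orbit map -/
noncomputable def orb (σ : D →⋆ₐ[ℂ] (H →L[ℂ] H)) (η : H) : D →ₗ[ℂ] H where
  toFun a := σ a η
  map_add' a b := by simp
  map_smul' c a := by simp

lemma Irr.dense {σ : D →⋆ₐ[ℂ] (H →L[ℂ] H)} (h : Irr σ) {η : H} (hη : η ≠ 0) :
    DenseRange (orb σ η) := by
  rcases h (orb σ η).range.topologicalClosure (Submodule.isClosed_topologicalClosure _)
    (fun a v hv => by
      refine (σ a).continuous.continuousWithinAt.mem_closure hv ?_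
      rintro _ ⟨b, rfl⟩
      exact ⟨a * b, by simp [orb]⟩) with h1 | h1
  · exfalso
    have : η ∈ (orb σ η).range.topologicalClosure :=
      Submodule.le_topologicalClosure _ ⟨1, by simp [orb]⟩
    rw [h1] at this
    exact hη this
  · exact Submodule.dense_iff_topologicalClosure_eq_top.2 h1

lemma exists_equiv {σ : D →⋆ₐ[ℂ] (H →L[ℂ] H)} {σ' : D →⋆ₐ[ℂ] (H' →L[ℂ] H')} {η : H} {η' : H'}
    (h1 : DenseRange (orb σ η)) (h2 : DenseRange (orb σ' η'))
    (h : ∀ a, ⟪η, σ a η⟫_ℂ = ⟪η', σ' a η'⟫_ℂ) :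
    ∃ U : H ≃ₗᵢ[ℂ] H', U η = η' ∧ ∀ a v, U (σ a v) = σ' a (U v) := by
  have hn : ∀ x : D, ‖orb σ' η' (LinearEquiv.refl ℂ D x)‖ = ‖orb σ η x‖ := fun x => by
    change ‖σ' x η'‖ = ‖σ x η‖
    rw [norm_eq_sqrt_re_inner (𝕜 := ℂ), norm_eq_sqrt_re_inner (𝕜 := ℂ), inner_mul, inner_mul, h]
  let U := (LinearEquiv.refl ℂ D).extendOfIsometry (orb σ η) (orb σ' η') h1 h2 hn
  have hU : ∀ x, U (σ x η) = σ' x η' := fun x =>
    (LinearEquiv.refl ℂ D).extendOfIsometry_eq (orb σ η) (orb σ' η') h1 h2 hn x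
  refine ⟨U, by simpa using hU 1, fun a v => ?_⟩
  refine h1.induction_on (p := fun v => U (σ a v) = σ' a (U v)) v
    (isClosed_eq (by fun_prop) (by fun_prop)) fun x => ?_
  change U (σ a (σ x η)) = σ' a (U (σ x η))
  rw [← mul_apply_eq_comp, ← map_mul, hU, hU, map_mul, mul_apply_eq_comp]

lemma Irr.eq_smul {σ : D →⋆ₐ[ℂ] (H →L[ℂ] H)} (h : Irr σ) {η v : H} (hη : η ≠ 0)
    (hv : ∀ x, IsSelfAdjoint x → (⟪σ x η, v⟫_ℂ).re = 0) : ∃ c : ℂ, v = c • η := by
  have h0 : ∀ l, ⟪η, σ l v⟫_ℂ + ⟪v, σ l η⟫_ℂ = 0 := by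
    have h1 : ∀ l, IsSelfAdjoint l → ⟪η, σ l v⟫_ℂ + ⟪v, σ l η⟫_ℂ = 0 := fun l hl => by
      conv_lhs => rw [← hl.star_eq, inner_star, hl.star_eq, ← inner_conj_symm v]
      rw [Complex.add_conj, hv l hl]
      simp
    intro l
    let _ : Module ℝ D := Module.complexToReal D
    have h2 := h1 _ (realPart l).2
    have h3 := h1 _ (imaginaryPart l).2
    rw [← realPart_add_I_smul_imaginaryPart l]
    simp only [map_add, map_smul, add_apply, smul_apply, inner_add_right, inner_smul_right]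
    linear_combination h2 + Complex.I * h3
  by_cases h1 : η + v = 0
  · exact ⟨-1, by rw [neg_one_smul, eq_neg_iff_add_eq_zero, add_comm, h1]⟩
  by_cases h2 : η - v = 0
  · exact ⟨1, by rw [one_smul, (sub_eq_zero.1 h2)]⟩
  obtain ⟨U, hU1, hU2⟩ := exists_equiv (h.dense h1) (h.dense h2) fun a => by
    simp only [map_add, map_sub, inner_add_left, inner_add_right, inner_sub_left, inner_sub_right]
    linear_combination 2 * h0 a
  obtain ⟨c, hc⟩ := h.schur (T := U.toContinuousLinearEquiv.toContinuousLinearMap) fun a =>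
    ContinuousLinearMap.ext fun v => hU2 a v
  have h3 : c • (η + v) = η - v := by rw [← hc, ← hU1]; rfl
  have h4 : (c + 1) • v = (1 - c) • η := by
    rw [smul_add] at h3
    rw [add_smul, sub_smul, one_smul, one_smul]
    linear_combination (norm := module) h3
  by_cases h5 : c + 1 = 0
  · exfalso
    have h6 : c = -1 := eq_neg_of_add_eq_zero_left h5
    rw [h5, h6, zero_smul] at h4
    exact hη ((smul_eq_zero.1 h4.symm).resolve_left (by norm_num))
  · exact ⟨(c + 1)⁻¹ * (1 - c), by rw [mul_smul, ← h4, inv_smul_smul₀ h5]⟩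

lemma Irr.exists_sa {σ : D →⋆ₐ[ℂ] (H →L[ℂ] H)} (h : Irr σ) {η ζ : H} (hη : η ≠ 0)
    (hζ : ⟪η, ζ⟫_ℂ = 0) {δ : ℝ} (hδ : 0 < δ) : ∃ x, IsSelfAdjoint x ∧ ‖σ x η - ζ‖ < δ := by
  let _ : InnerProductSpace ℝ H := InnerProductSpace.complexToReal
  let M : Submodule ℝ H :=
    { carrier := {y | ∃ x, IsSelfAdjoint x ∧ σ x η = y}
      add_mem' := by
        rintro _ _ ⟨x, hx, rfl⟩ ⟨y, hy, rfl⟩
        exact ⟨x + y, hx.add hy, by simp⟩
      zero_mem' := ⟨0, .zero _, by simp⟩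
      smul_mem' := by
        rintro c _ ⟨x, hx, rfl⟩
        refine ⟨(c : ℂ) • x, ?_, by rw [map_smul, smul_apply, Complex.coe_smul]⟩
        rw [IsSelfAdjoint, star_smul, hx.star_eq]
        simp }
  have h1 : ζ ∈ M.topologicalClosure := by
    rw [← Submodule.orthogonal_orthogonal_eq_closure, Submodule.mem_orthogonal]
    intro v hv
    obtain ⟨c, rfl⟩ := h.eq_smul hη (v := v) fun x hx => hv _ ⟨x, hx, rfl⟩
    change (⟪c • η, ζ⟫_ℂ).re = 0
    simp [inner_smul_left, hζ]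
  obtain ⟨_, ⟨x, hx, rfl⟩, h2⟩ := Metric.mem_closure_iff.1 h1 δ hδ
  exact ⟨x, hx, by rwa [dist_comm, dist_eq_norm] at h2⟩

lemma Irr.exists_split {σ : D →⋆ₐ[ℂ] (H →L[ℂ] H)} (h : Irr σ) {η : H} (hη : ‖η‖ = 1) (b : D)
    {δ : ℝ} (hδ : 0 < δ) : ∃ (c : ℂ) (l m : D), b = c • 1 + l + star m ∧ ‖σ l η‖ ≤ δ ∧
      ‖σ m η‖ ≤ δ := by
  have hη0 : η ≠ 0 := by
    rintro rfl
    simp at hη
  set c := ⟪η, σ b η⟫_ℂ with hc
  set ζ := σ (star (b - c • 1)) η with hζ
  have h0 : ⟪η, ζ⟫_ℂ = 0 := by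
    rw [hζ, inner_star, ← inner_conj_symm]
    simp [inner_sub_right, inner_smul_right, hc, inner_self_eq_norm_sq_to_K, hη]
  obtain ⟨x, hx, hx'⟩ := h.exists_sa hη0 (ζ := (1 / 2 : ℂ) • ζ) (by simp [inner_smul_right, h0])
    (half_pos hδ)
  obtain ⟨y, hy, hy'⟩ := h.exists_sa hη0 (ζ := (Complex.I / 2 : ℂ) • ζ)
    (by simp [inner_smul_right, h0]) (half_pos hδ)
  refine ⟨c, x + Complex.I • y, star (b - c • 1 - (x + Complex.I • y)), by simp, ?_, ?_⟩
  · have e : σ (x + Complex.I • y) η =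
        (σ x η - (1 / 2 : ℂ) • ζ) + Complex.I • (σ y η - (Complex.I / 2 : ℂ) • ζ) := by
      simp only [map_add, map_smul, add_apply, smul_apply, smul_sub, smul_smul]
      have : Complex.I * (Complex.I / 2) = -(1 / 2) := by
        linear_combination (1 / 2) * Complex.I_mul_I
      rw [this, neg_smul]
      abel
    rw [e]
    refine (norm_add_le _ _).trans ?_
    rw [norm_smul, Complex.norm_I]
    linarith
  · have e : σ (star (b - c • 1 - (x + Complex.I • y))) η =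
        -(σ x η - (1 / 2 : ℂ) • ζ) + Complex.I • (σ y η - (Complex.I / 2 : ℂ) • ζ) := by
      rw [star_sub, map_sub, sub_apply, ← hζ, star_add, star_smul, hx.star_eq, hy.star_eq]
      simp only [map_add, map_smul, add_apply, smul_apply, smul_sub, smul_smul]
      have : Complex.I * (Complex.I / 2) = -(1 / 2) := by
        linear_combination (1 / 2) * Complex.I_mul_I
      rw [this]
      have h2 : star Complex.I = -Complex.I := Complex.conj_I
      rw [h2]
      module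
    rw [e]
    refine (norm_add_le _ _).trans ?_
    rw [norm_smul, Complex.norm_I, norm_neg]
    linarith

/-- decreasing projections converge strongly -/
lemma exists_lim {Q : ℕ → H →L[ℂ] H} (hQ : ∀ n, IsStarProjection (Q n))
    (ha : ∀ m n, m ≤ n → Q m * Q n = Q n) (ζ : H) :
    ∃ η, Tendsto (fun n => Q n ζ) atTop (𝓝 η) ∧ ∀ n, Q n η = η := by
  have hp : ∀ m n, m ≤ n → ‖Q m ζ - Q n ζ‖ ^ 2 = ‖Q m ζ‖ ^ 2 - ‖Q n ζ‖ ^ 2 := by
    intro m n hmn
    have e1 : Q n * Q m = Q n := by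
      have := congrArg star (ha m n hmn)
      rwa [star_mul, (hQ m).isSelfAdjoint.star_eq, (hQ n).isSelfAdjoint.star_eq] at this
    have e2 : ⟪Q m ζ, Q n ζ⟫_ℂ = ⟪Q n ζ, Q n ζ⟫_ℂ := by
      have a1 : ∀ k x y, ⟪Q k x, y⟫_ℂ = ⟪x, Q k y⟫_ℂ := fun k x y => by
        conv_lhs => rw [← (hQ k).isSelfAdjoint.star_eq, ContinuousLinearMap.star_eq_adjoint,
          ContinuousLinearMap.adjoint_inner_left]
      rw [a1, a1, ← mul_apply_eq_comp, ← mul_apply_eq_comp, ha m n hmn,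
        (hQ n).isIdempotentElem.eq]
    rw [@norm_sub_sq ℂ, e2, inner_self_eq_norm_sq]
    ring
  have hanti : Antitone fun n => ‖Q n ζ‖ ^ 2 := fun m n hmn => by
    have := hp m n hmn
    simp only
    nlinarith [sq_nonneg ‖Q m ζ - Q n ζ‖]
  have hc := (tendsto_atTop_ciInf hanti ⟨0, by rintro _ ⟨n, rfl⟩; positivity⟩).cauchySeq
  have hcs : CauchySeq fun n => Q n ζ := by
    rw [Metric.cauchySeq_iff'] at hc ⊢
    intro ε hε
    obtain ⟨N, hN⟩ := hc (ε ^ 2) (by positivity)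
    refine ⟨N, fun n hn => ?_⟩
    have h1 := hN n hn
    rw [Real.dist_eq, abs_sub_comm, ← hp N n hn, abs_of_nonneg (sq_nonneg _)] at h1
    rw [dist_comm, dist_eq_norm]
    exact lt_of_pow_lt_pow_left₀ 2 hε.le h1
  obtain ⟨η, hη⟩ := cauchySeq_tendsto_of_complete hcs
  refine ⟨η, hη, fun n => tendsto_nhds_unique (((Q n).continuous.tendsto η).comp hη) ?_⟩
  refine hη.congr' ?_
  filter_upwards [eventually_ge_atTop n] with m hm
  simp only [Function.comp]
  rw [← mul_apply_eq_comp, ha n m hm]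

end Crest.Agent.R120
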