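import Crest.Agent.R120.Exc

/-!
Row 120: matrix lemmas, Cuntz families and spectral cuts.
-/

set_option autoImplicit false
set_option linter.unusedSectionVars false

namespace Crest.Agent.R120

open Filter Topology Finset Polynomial
open scoped InnerProductSpace

section Mat
variable {n : Type} [Fintype n] [DecidableEq n]

lemma proj_data {R : Matrix n n ℂ} (hR : IsStarProjection R) :
    R.trace = R.rank ∧ R.charpoly = (X - C 1) ^ R.rank * X ^ (Fintype.card n - R.rank) := by
  classical
  have hA : R.IsHermitian := hR.isSelfAdjoint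
  have h1 : ∀ i, hA.eigenvalues i ≠ 0 → hA.eigenvalues i = 1 := fun i hi =>
    (hR.isIdempotentElem.spectrum_subset ℝ (hA.eigenvalues_mem_spectrum_real i)).resolve_left hi
  have h2 : R.rank = #{i | hA.eigenvalues i ≠ 0} := by
    rw [hA.rank_eq_card_non_zero_eigs, Fintype.card_subtype]
  have h3 : Fintype.card n - R.rank = #{i | ¬ hA.eigenvalues i ≠ 0} := by
    rw [h2, ← card_univ, ← card_filter_add_card_filter_not (s := univ)
      (fun i => hA.eigenvalues i ≠ 0)]
    simp
  constructor
  · rw [hA.trace_eq_sum_eigenvalues, h2, card_filter]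
    push_cast
    refine sum_congr rfl fun i _ => ?_
    split_ifs with h
    · simp [h1 i h]
    · simpa using h
  · rw [hA.charpoly_eq, h3, h2, ← prod_filter_mul_prod_filter_not univ
      (fun i => hA.eigenvalues i ≠ 0), ← prod_const, ← prod_const]
    congr 1
    · refine prod_congr rfl fun i hi => ?_
      simp [h1 i (mem_filter.1 hi).2]
    · refine prod_congr rfl fun i hi => ?_
      simp [not_not.1 (mem_filter.1 hi).2]

lemma proj_equiv {R R' : Matrix n n ℂ} (hR : IsStarProjection R) (hR' : IsStarProjection R')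
    (h : R.trace = R'.trace) : ∃ U ∈ unitary (Matrix n n ℂ), R = U * R' * star U := by
  have hA : R.IsHermitian := hR.isSelfAdjoint
  have hB : R'.IsHermitian := hR'.isSelfAdjoint
  have h1 : R.rank = R'.rank := by
    rw [(proj_data hR).1, (proj_data hR').1] at h
    exact_mod_cast h
  have h2 : hA.eigenvalues = hB.eigenvalues :=
    (hA.eigenvalues_eq_eigenvalues_iff hB).2 (by rw [(proj_data hR).2, (proj_data hR').2, h1])
  refine ⟨(hA.eigenvectorUnitary * star hB.eigenvectorUnitary : unitary _), SetLike.coe_mem _, ?_⟩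
  conv_lhs => rw [hA.spectral_theorem, h2, ← hB.conjStarAlgAut_star_eigenvectorUnitary,
    ← Unitary.conjStarAlgAut_mul_apply]
  rfl

/-- the standard projections -/
noncomputable def std (N m : ℕ) : Matrix (Fin N) (Fin N) ℂ :=
  Matrix.diagonal fun i => if (i : ℕ) < m then 1 else 0

lemma std_mul (N : ℕ) {m m' : ℕ} (h : m' ≤ m) : std N m * std N m' = std N m' := by
  rw [std, std, Matrix.diagonal_mul_diagonal]
  congr 1
  ext i
  by_cases h1 : (i : ℕ) < m'
  · simp [h1, h1.trans_le h]
  · simp [h1]

lemma std_proj (N m : ℕ) : IsStarProjection (std N m) := by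
  refine ⟨std_mul N le_rfl, ?_⟩
  change star (std N m) = std N m
  rw [std, Matrix.star_eq_conjTranspose, Matrix.diagonal_conjTranspose]
  congr 1
  ext i
  by_cases h1 : (i : ℕ) < m <;> simp [h1]

lemma std_trace {N m : ℕ} (h : m ≤ N) : (std N m).trace = m := by
  rw [std, Matrix.trace_diagonal, Fin.sum_univ_eq_sum_range (fun i => if i < m then (1 : ℂ) else 0),
    sum_boole]
  congr 1
  conv_rhs => rw [← card_range m]
  congr 1
  ext i
  simp only [mem_filter, mem_range]
  omega

lemma std_rank {N m : ℕ} (h : m ≤ N) : (std N m).rank = m := by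
  have := (proj_data (std_proj N m)).1
  rw [std_trace h] at this
  exact_mod_cast this.symm

lemma std_full (N : ℕ) : std N N = 1 := by
  simp [std]

end Mat

lemma glue {R : Type*} [Ring R] [StarRing R] {p p' r u v : R} (hp : IsStarProjection p)
    (hp' : IsStarProjection p') (hr : IsStarProjection r) (h1 : p * p' = p') (h2 : p * r = r)
    (hu : u ∈ unitary R) (hv : v ∈ unitary R) (h3 : r = u * p' * star u)
    (h4 : p - r = v * (p - p') * star v) :
    ∃ t ∈ unitary R, t * (1 - p) = 1 - p ∧ r = t * p' * star t := by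
  have h1' := flip_le hp hp' h1
  have h2' := flip_le hp hr h2
  have a1 : u * p' = r * u := by rw [h3, mul_assoc, hu.1, mul_one]
  have a2 : v * (p - p') = (p - r) * v := by rw [h4, mul_assoc, hv.1, mul_one]
  have a3 : p' * star u = star u * r := by
    simpa [hp'.isSelfAdjoint.star_eq, hr.isSelfAdjoint.star_eq] using congrArg star a1
  have a4 : (p - p') * star v = star v * (p - r) := by
    simpa [hp'.isSelfAdjoint.star_eq, hr.isSelfAdjoint.star_eq, hp.isSelfAdjoint.star_eq]
      using congrArg star a2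
  have e1 : star (u * p' + v * (p - p') + (1 - p)) = p' * star u + (p - p') * star v + (1 - p) := by
    simp [hp'.isSelfAdjoint.star_eq, hp.isSelfAdjoint.star_eq]
  have pp := hp.isIdempotentElem.eq
  have pp' := hp'.isIdempotentElem.eq
  have rr := hr.isIdempotentElem.eq
  have b1 : p' * (p - p') = 0 := by rw [mul_sub, h1', pp', sub_self]
  have b2 : (p - p') * p' = 0 := by rw [sub_mul, h1, pp', sub_self]
  have b3 : p' * (1 - p) = 0 := by rw [mul_sub, h1', mul_one, sub_self]
  have b4 : (1 - p) * p' = 0 := by rw [sub_mul, h1, one_mul, sub_self]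
  have b5 : (p - p') * (1 - p) = 0 := by rw [sub_mul, b3, hp.mul_one_sub_self, sub_self]
  have b6 : (1 - p) * (p - p') = 0 := by rw [mul_sub, b4, hp.one_sub_mul_self, sub_self]
  have b7 : (p - p') * (p - p') = p - p' := by rw [mul_sub, b2, sub_mul, pp, h1', sub_zero]
  have c1 : r * (p - r) = 0 := by rw [mul_sub, h2', rr, sub_self]
  have c2 : (p - r) * r = 0 := by rw [sub_mul, h2, rr, sub_self]
  have c3 : r * (1 - p) = 0 := by rw [mul_sub, h2', mul_one, sub_self]
  have c4 : (1 - p) * r = 0 := by rw [sub_mul, h2, one_mul, sub_self]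
  have c5 : (p - r) * (1 - p) = 0 := by rw [sub_mul, c3, hp.mul_one_sub_self, sub_self]
  have c6 : (1 - p) * (p - r) = 0 := by rw [mul_sub, c4, hp.one_sub_mul_self, sub_self]
  have c7 : (p - r) * (p - r) = p - r := by rw [mul_sub, c2, sub_mul, pp, h2', sub_zero]
  have d := hp.one_sub.isIdempotentElem.eq
  have ex : ∀ {a b c : R}, a * b = c → ∀ y, a * (b * y) = c * y := fun h y => by
    rw [← mul_assoc, h]
  refine ⟨u * p' + v * (p - p') + (1 - p), ⟨?_, ?_⟩, ?_, ?_⟩
  · have f : star u * (r * u) + star v * ((p - r) * v) + (1 - p) = 1 := by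
      rw [← a1, ← a2, ← mul_assoc, ← mul_assoc, hu.1, hv.1]
      simp
    rw [e1, a1, a2, a3, a4]
    generalize p - r = x at *
    generalize 1 - p = y at *
    simp only [mul_add, add_mul, mul_assoc, ex rr, ex c1, ex c2, c3, ex c4, c5, ex c6, ex c7, d,
      zero_mul, mul_zero, add_zero, zero_add, f]
  · have f : u * (p' * star u) + v * ((p - p') * star v) + (1 - p) = 1 := by
      rw [← mul_assoc, ← mul_assoc, ← h3, ← h4]
      simp
    rw [e1]
    generalize p - p' = x at *
    generalize 1 - p = y at *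
    simp only [mul_add, add_mul, mul_assoc, ex pp', ex b1, ex b2, b3, ex b4, b5, ex b6, ex b7, d,
      zero_mul, mul_zero, add_zero, zero_add, f]
  · simp only [add_mul, mul_assoc, b3, b5, d, mul_zero, zero_add]
  · rw [e1]
    generalize p - p' = x at *
    generalize 1 - p = y at *
    simp only [mul_add, add_mul, mul_assoc, ex pp', ex b1, b2, b3, b4, zero_mul, mul_zero, add_zero,
      pp', h3]

/-- the rank bound -/
lemma rank_le {n : Type} [Fintype n] [DecidableEq n] {D : Type} [NormedRing D] [StarRing D]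
    [CStarRing D] [NormedAlgebra ℂ D] (J : Matrix n n ℂ →⋆ₐ[ℂ] D) (hJ : Function.Injective J)
    {R C : Matrix n n ℂ} (hR : R * R = R) {z : ℂ} (h : ‖J (R * C * R - z • R)‖ < ‖z‖) :
    R.rank ≤ C.rank := by
  have hz : z ≠ 0 := by
    rintro rfl
    exact absurd h (by simp)
  have h1 : IsUnit (R * C * R - z • R + z • 1) := by
    rw [← Matrix.mulVec_injective_iff_isUnit, ← Matrix.isLeftRegular_iff_mulVec_injective,
      isLeftRegular_iff_right_eq_zero_of_mul]
    intro Y hY
    rw [add_mul, smul_mul_assoc, one_mul, add_eq_zero_iff_eq_neg] at hY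
    have h2 := norm_mul_le (J (R * C * R - z • R)) (J Y)
    rw [← map_mul, hY, map_neg, map_smul, norm_neg, norm_smul] at h2
    refine hJ ?_
    rw [map_zero, ← norm_le_zero_iff]
    nlinarith [norm_nonneg (J Y)]
  obtain ⟨Y, hY⟩ := h1.exists_left_inv
  have h2 : R = Y * R * C * R := by
    conv_lhs => rw [← one_mul R, ← hY]
    simp [mul_assoc, add_mul, sub_mul, hR]
  rw [h2]
  exact (Matrix.rank_mul_le_left _ _).trans (Matrix.rank_mul_le_right _ _)

section Cut
variable {H : Type} [NormedAddCommGroup H] [InnerProductSpace ℂ H] [CompleteSpace H]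

lemma exists_cut {ι : Type} [Fintype ι] (a : ι → (H →L[ℂ] H)) (S : StarSubalgebra ℂ (H →L[ℂ] H))
    (hS : IsClosed (S : Set (H →L[ℂ] H))) (ha : ∀ i, a i ∈ S)
    (hf : (spectrum ℝ (∑ i, star (a i) * a i)).Finite) {δ : ℝ} (hδ : 0 < δ) :
    ∃ r ∈ S, ∃ y ∈ S, IsStarProjection r ∧
      (∀ c, Commute (∑ i, star (a i) * a i) c → Commute r c) ∧
      star y * y + (δ : ℂ) • (1 - r) = ∑ i, star (a i) * a i ∧ ∀ i, ‖a i * r‖ ^ 2 ≤ δ := by
  set s := ∑ i, star (a i) * a i with hs
  have h0 : 0 ≤ s := sum_nonneg fun i _ => star_mul_self_nonneg _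
  have hsa : IsSelfAdjoint s := h0.isSelfAdjoint
  have hc : ∀ f : ℝ → ℝ, ContinuousOn f (spectrum ℝ s) := fun f => hf.continuousOn f
  have hm : s ∈ S := sum_mem fun i _ => mul_mem (star_mem (ha i)) (ha i)
  let f : ℝ → ℝ := fun t => if t ≤ δ then 1 else 0
  let g : ℝ → ℝ := fun t => √(if t ≤ δ then t else t - δ)
  have hr : IsStarProjection (cfc f s) := by
    refine ⟨?_, cfc_predicate f s⟩
    change _ * _ = _
    rw [← cfc_mul f f s (hc _) (hc _)]
    refine cfc_congr fun t _ => ?_
    simp only [f]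
    split_ifs <;> simp
  refine ⟨cfc f s, cfc_mem (𝕜' := ℂ) f hm, cfc g s, cfc_mem (𝕜' := ℂ) g hm, hr,
    fun c hc => hc.cfc_real f, ?_, fun i => ?_⟩
  · rw [(cfc_predicate g s : IsSelfAdjoint _).star_eq, ← cfc_mul g g s (hc _) (hc _),
      ← cfc_one ℝ s, ← cfc_sub _ _ s (hc _) (hc _), Complex.coe_smul, ← cfc_smul δ _ s (hc _),
      ← cfc_add s _ _ (hc _) (hc _)]
    conv_rhs => rw [← cfc_id' ℝ s]
    refine cfc_congr fun t ht => ?_
    have := spectrum_nonneg_of_nonneg h0 ht
    simp only [f, g, Pi.one_apply, smul_eq_mul]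
    split_ifs with h
    · simp [Real.mul_self_sqrt this]
    · rw [Real.mul_self_sqrt (by linarith)]
      ring
  · have h1 : star (a i) * a i ≤ s :=
      single_le_sum (f := fun i => star (a i) * a i) (fun i _ => star_mul_self_nonneg _) (mem_univ i)
    have h2 := star_left_conjugate_le_conjugate h1 (cfc f s)
    have h3 : star (cfc f s) * s * cfc f s = cfc (fun t => f t * t * f t) s := by
      rw [hr.isSelfAdjoint.star_eq, cfc_mul _ _ s (hc _) (hc _), cfc_mul _ _ s (hc _) (hc _),
        cfc_id' ℝ s]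
    have h4 : star (cfc f s) * (star (a i) * a i) * cfc f s = star (a i * cfc f s) * (a i * cfc f s) := by
      simp only [star_mul, mul_assoc]
    rw [h3, h4] at h2
    rw [sq, ← CStarRing.norm_star_mul_self]
    refine (CStarAlgebra.norm_le_norm_of_nonneg_of_le (star_mul_self_nonneg _) h2).trans ?_
    refine norm_cfc_le hδ.le fun t ht => ?_
    have := spectrum_nonneg_of_nonneg h0 ht
    simp only [f]
    split_ifs with h
    · simpa [abs_of_nonneg this] using h
    · simp [hδ.le]

end Cut

/-- The separable Hilbert space. -/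
noncomputable abbrev HH := lp (fun _ : ℕ => ℂ) 2

/-- The bounded operators. -/
noncomputable abbrev BH := HH →L[ℂ] HH

lemma exists_iso (f : ℕ → ℕ) (hf : Function.Injective f) (b : HilbertBasis ℕ ℂ HH) :
    ∃ T : BH, ∀ j, T (b j) = b (f j) := by
  refine ⟨(b.orthonormal.comp f hf).orthogonalFamily.linearIsometry.toContinuousLinearMap ∘L
    b.repr.toContinuousLinearEquiv.toContinuousLinearMap, fun j => ?_⟩
  change (b.orthonormal.comp f hf).orthogonalFamily.linearIsometry (b.repr (b j)) = _
  rw [b.repr_self, OrthogonalFamily.linearIsometry_apply_single]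
  simp

lemma ext_basis (b : HilbertBasis ℕ ℂ HH) {S T : BH}
    (h : ∀ j k, ⟪b j, S (b k)⟫_ℂ = ⟪b j, T (b k)⟫_ℂ) : S = T := by
  refine ContinuousLinearMap.ext_on (s := Set.range b)
    (Submodule.dense_iff_topologicalClosure_eq_top.mpr b.dense_span) ?_
  rintro _ ⟨k, rfl⟩
  apply b.repr.injective
  ext j
  rw [b.repr_apply_apply, b.repr_apply_apply, h]

theorem exists_cuntz (S : Type) [Fintype S] [DecidableEq S] [Nonempty S] :
    ∃ T : S → BH, (∀ a b, star (T a) * T b = if a = b then 1 else 0) ∧
      ∑ a, T a * star (T a) = 1 := by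
  obtain ⟨φ⟩ : Nonempty (S × ℕ ≃ ℕ) := nonempty_equiv_of_countable
  let b : HilbertBasis ℕ ℂ HH := default
  have hb := orthonormal_iff_ite.mp b.orthonormal
  choose T hT using fun a : S => exists_iso (fun j => φ (a, j))
    (fun j k h => by simpa using h) b
  have h1 : ∀ a c, star (T a) * T c = if a = c then 1 else 0 := fun a c => by
    refine ext_basis b fun j k => ?_
    rw [mul_apply_eq_comp, ContinuousLinearMap.star_eq_adjoint,
      ContinuousLinearMap.adjoint_inner_right, hT, hT, hb]
    by_cases h : a = c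
    · simp [h, hb]
    · simp [h]
  refine ⟨T, h1, ext_basis b fun j k => ?_⟩
  obtain ⟨⟨c, k⟩, rfl⟩ := φ.surjective k
  have h2 : ∀ a, (T a * star (T a)) (b (φ (c, k))) = if a = c then b (φ (c, k)) else 0 := by
    intro a
    rw [← hT, ← mul_apply_eq_comp, mul_assoc, h1]
    split_ifs with h
    · simp [h]
    · simp
  simp [h2]

end Crest.Agent.R120
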