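import Crest.Agent.R120.Mat

/-!
Row 120: the algebraic inductive limit of the matrix algebras `M_{2^k}`.
-/

set_option autoImplicit false
set_option linter.unusedSectionVars false

namespace Crest.Agent.R120

open Filter Topology Finset
open scoped InnerProductSpace

lemma mat_step {N μ : ℕ} (hN : 2 * μ ≤ N) {D : Type} [NormedRing D] [StarRing D]
    [CStarRing D] [NormedAlgebra ℂ D] (J : Matrix (Fin N) (Fin N) ℂ →⋆ₐ[ℂ] D)
    (hJ : Function.Injective J) {R : Matrix (Fin N) (Fin N) ℂ} (hR : IsStarProjection R)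
    (h0 : R ≠ 0) (h1 : std N (2 * μ) * R = R) {z : ℂ} (h : ‖J (R * std N μ * R - z • R)‖ < 1 / 2) :
    ∃ m, 1 ≤ m ∧ m ≤ μ ∧ ∃ t ∈ unitary (Matrix (Fin N) (Fin N) ℂ),
      t * (1 - std N (2 * μ)) = 1 - std N (2 * μ) ∧ R = t * std N m * star t := by
  have hsub : ∀ {p q : Matrix (Fin N) (Fin N) ℂ}, IsStarProjection p → IsStarProjection q →
      p * q = q → IsStarProjection (p - q) := fun hp hq h =>
    hq.sub_of_mul_eq_right hp h
  have h2 : R.rank ≤ μ := by
    by_cases hz : 1 / 2 ≤ ‖z‖
    · exact (rank_le J hJ hR.isIdempotentElem.eq (h.trans_le hz)).trans (std_rank (by omega)).le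
    · have h3 := (proj_data (hsub (std_proj N (2 * μ)) (std_proj N μ) (std_mul N (by omega)))).1
      rw [Matrix.trace_sub, std_trace hN, std_trace (by omega)] at h3
      have h4 : (std N (2 * μ) - std N μ).rank = μ := by
        have : ((std N (2 * μ) - std N μ).rank : ℂ) = μ := by
          rw [← h3]
          push_cast
          ring
        exact_mod_cast this
      refine (rank_le J hJ hR.isIdempotentElem.eq (z := 1 - z) ?_).trans h4.le
      have e : R * (std N (2 * μ) - std N μ) * R - (1 - z) • R = -(R * std N μ * R - z • R) := by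
        rw [mul_sub, sub_mul, mul_assoc R _ R, h1, hR.isIdempotentElem.eq, sub_smul, one_smul]
        abel
      rw [e, map_neg, norm_neg]
      have := norm_sub_norm_le 1 z
      rw [norm_one] at this
      linarith
  have h3 := (proj_data hR).1
  obtain ⟨u, hu, hu'⟩ := proj_equiv hR (std_proj N R.rank) (by rw [h3, std_trace (by omega)])
  obtain ⟨v, hv, hv'⟩ := proj_equiv (hsub (std_proj N (2 * μ)) hR h1)
    (hsub (std_proj N (2 * μ)) (std_proj N R.rank) (std_mul N (by omega)))
    (by rw [Matrix.trace_sub, Matrix.trace_sub, h3, std_trace (m := R.rank) (by omega)])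
  refine ⟨R.rank, ?_, h2, glue (std_proj N (2 * μ)) (std_proj N R.rank) hR (std_mul N (by omega)) h1
    hu hv hu' hv'⟩
  by_contra h4
  rw [show R.rank = 0 by omega] at hu'
  exact h0 (by simpa [std] using hu')

/-- a tower of Cuntz families -/
structure Tow where
  T : ℕ → ℕ → BH
  orth : ∀ k i j, i < 2 ^ k → j < 2 ^ k → star (T k i) * T k j = if i = j then 1 else 0
  zero : T 0 0 = 1
  succ : ∀ k i j, T k i * star (T k j) = T (k + 1) (2 * i) * star (T (k + 1) (2 * j)) +
    T (k + 1) (2 * i + 1) * star (T (k + 1) (2 * j + 1))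

lemma exists_tow : Nonempty Tow := by
  obtain ⟨S, h1, h2⟩ := exists_cuntz (Fin 2)
  let T : ℕ → ℕ → BH := fun k => Nat.rec (fun _ => 1)
    (fun _ t i => t (i / 2) * S ⟨i % 2, Nat.mod_lt _ two_pos⟩) k
  have hT : ∀ k i, T (k + 1) i = T k (i / 2) * S ⟨i % 2, Nat.mod_lt _ two_pos⟩ := fun _ _ => rfl
  refine ⟨⟨T, fun k => ?_, rfl, fun k i j => ?_⟩⟩
  · induction k with
    | zero =>
      intro i j hi hj
      rw [if_pos (by omega)]
      simp [T]
    | succ k ih =>
      intro i j hi hj
      rw [hT, hT, star_mul, mul_assoc, ← mul_assoc (star (T k _)), ih _ _ (by omega) (by omega)]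
      split_ifs with h3 h4 h4
      · rw [one_mul, h1, if_pos (by simp [h4])]
      · rw [one_mul, h1, if_neg (by simp; omega)]
      · omega
      · simp
  · have e1 : ∀ i, T (k + 1) (2 * i) = T k i * S 0 := fun i => by simp [hT]
    have e2 : ∀ i, T (k + 1) (2 * i + 1) = T k i * S 1 := fun i => by
      rw [hT, show (2 * i + 1) / 2 = i by omega]
      simp [Nat.add_mod]
    rw [Fin.sum_univ_two] at h2
    rw [e1, e1, e2, e2, star_mul, star_mul]
    calc _ = T k i * (S 0 * star (S 0) + S 1 * star (S 1)) * star (T k j) := by rw [h2, mul_one]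
      _ = _ := by simp only [mul_add, add_mul, mul_assoc]

namespace Tow
variable (t : Tow)

lemma orth' (k : ℕ) (i j : Fin (2 ^ k)) (y : BH) :
    star (t.T k i) * (t.T k j * y) = if i = j then y else 0 := by
  rw [← mul_assoc, t.orth k i j i.2 j.2]
  simp [Fin.ext_iff]

lemma sum_succ (k m : ℕ) : ∑ i ∈ range m, t.T k i * star (t.T k i) =
    ∑ i ∈ range (2 * m), t.T (k + 1) i * star (t.T (k + 1) i) := by
  induction m with
  | zero => simp
  | succ m ih => rw [sum_range_succ, ih, mul_add, mul_one, sum_range_succ, sum_range_succ, t.succ,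
      add_assoc]

lemma sum_one (k : ℕ) : ∑ i ∈ range (2 ^ k), t.T k i * star (t.T k i) = 1 := by
  induction k with
  | zero => simp [t.zero]
  | succ k ih => rw [pow_succ', ← t.sum_succ, ih]

/-- the embeddings of the matrix algebras -/
noncomputable def J₀ (k : ℕ) : Matrix (Fin (2 ^ k)) (Fin (2 ^ k)) ℂ →⋆ₐ[ℂ] BH where
  toFun M := ∑ a, ∑ b, M a b • (t.T k a * star (t.T k b))
  map_one' := by
    simp [Matrix.one_apply, Fin.sum_univ_eq_sum_range (fun i => t.T k i * star (t.T k i)),
      t.sum_one]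
  map_mul' M N := by
    simp only [sum_mul]
    simp only [mul_sum, smul_mul_smul_comm, mul_assoc, t.orth', mul_ite, mul_zero, smul_ite,
      smul_zero, Matrix.mul_apply, sum_smul]
    refine sum_congr rfl fun a _ => ?_
    rw [sum_comm]
    refine sum_congr rfl fun b _ => ?_
    rw [sum_comm]
    simp
  map_zero' := by simp
  map_add' M N := by simp [add_smul, sum_add_distrib]
  commutes' c := by
    simp [Algebra.algebraMap_eq_smul_one, Matrix.one_apply, ← smul_sum,
      Fin.sum_univ_eq_sum_range (fun i => t.T k i * star (t.T k i)), t.sum_one]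
  map_star' M := by
    simp only [star_sum, star_smul, star_mul, star_star, Matrix.star_apply]
    rw [sum_comm]

lemma J₀_apply (k : ℕ) (M : Matrix (Fin (2 ^ k)) (Fin (2 ^ k)) ℂ) :
    t.J₀ k M = ∑ a, ∑ b, M a b • (t.T k a * star (t.T k b)) := rfl

lemma J₀_inj (k : ℕ) : Function.Injective (t.J₀ k) :=
  have : Nontrivial BH := by
    obtain ⟨T, hT⟩ := exists_iso (fun n => n) (fun _ _ h => h) default
    refine ⟨T, 0, ?_⟩
    rintro rfl
    exact (default : HilbertBasis ℕ ℂ HH).orthonormal.ne_zero 0 (hT 0).symm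
  (t.J₀ k).toRingHom.injective

lemma J₀_single (k : ℕ) (a b : Fin (2 ^ k)) :
    t.J₀ k (Matrix.single a b 1) = t.T k a * star (t.T k b) := by
  simp [J₀_apply, Matrix.single_apply, ite_and]

lemma J₀_std (k : ℕ) {m : ℕ} (h : m ≤ 2 ^ k) :
    t.J₀ k (std _ m) = ∑ i ∈ range m, t.T k i * star (t.T k i) := by
  simp only [J₀_apply, std, Matrix.diagonal_apply, ite_smul, zero_smul, sum_ite_eq, mem_univ,
    if_true, one_smul]
  rw [Fin.sum_univ_eq_sum_range (fun i => if i < m then t.T k i * star (t.T k i) else 0),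
    ← sum_filter]
  congr 1
  ext i
  simp only [mem_filter, mem_range]
  omega

lemma range_succ (k : ℕ) : (t.J₀ k).range ≤ (t.J₀ (k + 1)).range := by
  rintro _ ⟨M, rfl⟩
  change t.J₀ k M ∈ _
  rw [J₀_apply]
  refine sum_mem fun a _ => sum_mem fun b _ => SMulMemClass.smul_mem (M a b) ?_
  rw [t.succ]
  have ha := a.2
  have hb := b.2
  exact add_mem ⟨_, t.J₀_single (k + 1) ⟨2 * a, by omega⟩ ⟨2 * b, by omega⟩⟩
    ⟨_, t.J₀_single (k + 1) ⟨2 * a + 1, by omega⟩ ⟨2 * b + 1, by omega⟩⟩

/-- the inductive limit -/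
noncomputable def D : StarSubalgebra ℂ BH where
  carrier := {d | ∀ᶠ k in atTop, d ∈ (t.J₀ k).range}
  mul_mem' ha hb := by
    filter_upwards [ha, hb] with k ha hb using mul_mem ha hb
  add_mem' ha hb := by
    filter_upwards [ha, hb] with k ha hb using add_mem ha hb
  algebraMap_mem' c := Eventually.of_forall fun k => algebraMap_mem _ c
  star_mem' ha := by
    filter_upwards [ha] with k ha using star_mem ha

lemma range_le (k : ℕ) : (t.J₀ k).range ≤ t.D := fun d hd => by
  filter_upwards [eventually_ge_atTop k] with l hl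
  exact monotone_nat_of_le_succ t.range_succ hl hd

/-- the embeddings into the limit -/
noncomputable def J (k : ℕ) : Matrix (Fin (2 ^ k)) (Fin (2 ^ k)) ℂ →⋆ₐ[ℂ] t.D :=
  (t.J₀ k).codRestrict t.D fun M => t.range_le k ⟨M, rfl⟩

lemma J_coe (k : ℕ) (M : Matrix (Fin (2 ^ k)) (Fin (2 ^ k)) ℂ) : (t.J k M : BH) = t.J₀ k M := rfl

lemma J_inj (k : ℕ) : Function.Injective (t.J k) := fun _ _ h =>
  t.J₀_inj k (congrArg Subtype.val h)

lemma J_level (d : t.D) : ∀ᶠ k in atTop, ∃ M, t.J k M = d := by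
  filter_upwards [d.2] with k ⟨M, hM⟩ using ⟨M, Subtype.ext hM⟩

lemma J_std (k l : ℕ) {m : ℕ} (h : m ≤ 2 ^ k) :
    t.J k (std _ m) = t.J (k + l) (std _ (2 ^ l * m)) := by
  induction l with
  | zero => simp
  | succ l ih =>
    have h1 : 2 ^ l * m ≤ 2 ^ (k + l) := by rw [pow_add, mul_comm]; gcongr
    rw [ih, ← add_assoc, show 2 ^ (l + 1) * m = 2 * (2 ^ l * m) by ring]
    refine Subtype.ext ?_
    rw [J_coe, J_coe, t.J₀_std _ h1, t.J₀_std _ (by omega), t.sum_succ]

lemma single_zero (k : ℕ) : Matrix.single (0 : Fin (2 ^ k)) 0 (1 : ℂ) = std _ 1 := by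
  ext i j
  simp only [Matrix.single_apply, std, Matrix.diagonal_apply, Fin.ext_iff, Fin.val_zero]
  split_ifs <;> first | rfl | omega

set_option maxHeartbeats 4000000 in
/-- the UHF structure -/
noncomputable def uhf : UHF t.D where
  x k i := t.J k (Matrix.single i 0 1)
  e k := t.J k (std _ 1)
  he k := by rw [single_zero]
  e_proj k := (std_proj _ _).map _
  e_ne k h := by
    have := congrArg Matrix.trace (t.J_inj k (h.trans (map_zero _).symm))
    simp [std_trace Nat.one_le_two_pow] at this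
  e_succ k := by rw [t.J_std k 1 Nat.one_le_two_pow, ← map_mul, std_mul _ (by norm_num)]
  orth k i j := by
    rw [← map_star, ← map_mul, Matrix.star_eq_conjTranspose, Matrix.conjTranspose_single]
    split_ifs with h
    · simp [h, single_zero]
    · simp [h]
  sum k := by
    simp only [← map_star, ← map_mul, Matrix.star_eq_conjTranspose, Matrix.conjTranspose_single,
      star_one, Matrix.single_mul_single_same, mul_one, ← map_sum]
    rw [← map_one (t.J k)]
    congr 1
    ext a b
    simp [Matrix.sum_apply, Matrix.single_apply, Matrix.one_apply, ite_and]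
  level d := by
    filter_upwards [t.J_level d] with k ⟨M, hM⟩
    rw [← hM, Matrix.matrix_eq_sum_single M]
    simp only [map_sum]
    refine sum_mem fun a _ => sum_mem fun b _ => ?_
    have : Matrix.single a b (M a b) = M a b • Matrix.single a b (1 : ℂ) := by simp
    rw [this, map_smul]
    refine Submodule.smul_mem _ _ (Submodule.subset_span ⟨a, b, ?_⟩)
    simp [← map_star, ← map_mul, Matrix.star_eq_conjTranspose, Matrix.conjTranspose_single]
  cut ι _ a δ hδ := by
    obtain ⟨k, hk⟩ := (eventually_all.2 fun i => (a i).2).exists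
    have hfd : FiniteDimensional ℂ (LinearMap.range (t.J₀ k).toAlgHom.toLinearMap) := inferInstance
    have hcl : IsClosed ((t.J₀ k).range : Set BH) :=
      Submodule.closed_of_finiteDimensional (LinearMap.range (t.J₀ k).toAlgHom.toLinearMap)
    obtain ⟨r, hr, y, hy, h1, h2, h3, h4⟩ := exists_cut (fun i => (a i : BH)) _ hcl hk (by
      obtain ⟨M, hM⟩ : ∑ i, star (a i : BH) * a i ∈ (t.J₀ k).range :=
        sum_mem fun i _ => mul_mem (star_mem (hk i)) (hk i)
      rw [← hM, ← spectrum.preimage_algebraMap ℂ]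
      exact (M.finite_spectrum.subset (AlgHom.spectrum_apply_subset (t.J₀ k) M)).preimage
        (FaithfulSMul.algebraMap_injective ℝ ℂ).injOn) hδ
    refine ⟨⟨r, t.range_le k hr⟩, ⟨y, t.range_le k hy⟩, ⟨Subtype.ext h1.1, Subtype.ext h1.2⟩,
      fun c hc => Subtype.ext (h2 c ?_), Subtype.ext (h3.trans (by simp)), h4⟩
    simpa using hc.map t.D.subtype
  Std n p := ∃ k m, 1 ≤ m ∧ m * 2 ^ n ≤ 2 ^ k ∧ p = t.J k (std _ m)
  std_zero := ⟨0, 1, le_rfl, le_rfl, by rw [← map_one (t.J 0), ← std_full]; rfl⟩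
  std_proj := by
    rintro n _ ⟨k, m, -, -, rfl⟩
    exact (std_proj _ _).map _
  std_lo := by
    rintro n _ ⟨k, m, h, -, rfl⟩
    exact ⟨k, by rw [← map_mul, std_mul _ h]⟩
  std_hi := by
    rintro n _ ⟨k, m, h1, h2, rfl⟩
    have h3 : n ≤ k := (Nat.pow_le_pow_iff_right one_lt_two).1 (le_trans (by nlinarith [Nat.one_le_two_pow (n := n)]) h2)
    obtain ⟨l, rfl⟩ := Nat.exists_eq_add_of_le h3
    rw [t.J_std n l Nat.one_le_two_pow, ← map_mul, std_mul]
    rw [pow_add, mul_comm] at h2
    simpa using h2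
  std_step := by
    rintro n _ ⟨k, m, h1, h2, rfl⟩
    refine ⟨t.J (k + 1) (std _ m), fun r z hr hr0 hpr hz => ?_⟩
    obtain ⟨l, ⟨R, rfl⟩, hl⟩ := ((t.J_level r).and (eventually_ge_atTop (k + 1))).exists
    obtain ⟨l, rfl⟩ := Nat.exists_eq_add_of_le hl
    have h3 : m ≤ 2 ^ k := le_trans (by nlinarith [Nat.one_le_two_pow (n := n)]) h2
    have e1 : t.J k (std _ m) = t.J (k + 1 + l) (std _ (2 * (2 ^ l * m))) := by
      rw [t.J_std k 1 h3, t.J_std (k + 1) l (by omega)]
      congr 2
      ring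
    rw [e1] at hpr ⊢
    rw [t.J_std (k + 1) l (by omega), ← map_mul, ← map_mul, ← map_smul, ← map_sub] at hz
    have h4 : 2 * (2 ^ l * m) * 2 ^ n ≤ 2 ^ (k + 1 + l) := by
      calc _ = 2 * 2 ^ l * (m * 2 ^ n) := by ring
        _ ≤ 2 * 2 ^ l * 2 ^ k := by gcongr
        _ = _ := by ring
    obtain ⟨m', a1, a2, v, a3, a4, a5⟩ := mat_step
      (le_trans (Nat.le_mul_of_pos_right _ (by positivity)) h4) _ (t.J_inj _)
      (⟨t.J_inj _ (by rw [map_mul]; exact hr.1), t.J_inj _ (by rw [map_star]; exact hr.2)⟩ :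
        IsStarProjection R) (by rintro rfl; exact hr0 (map_zero _))
      (t.J_inj _ (by rw [map_mul]; exact hpr)) hz
    refine ⟨t.J _ (std _ m'), t.J _ v, ⟨_, m', a1, le_trans ?_ h4, rfl⟩, ?_,
      Unitary.map_mem _ a3, ?_, ?_⟩
    · rw [pow_succ]
      nlinarith [Nat.one_le_two_pow (n := n)]
    · rw [← map_mul, std_mul _ (by omega)]
    · rw [← map_one (t.J (k + 1 + l)), ← map_sub, ← map_mul, a4]
    · rw [← map_star, ← map_mul, ← map_mul, ← a5]

end Tow

end Crest.Agent.R120
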