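import Crest.Agent.R120.Alg
import Crest.Prelude.Def_CStarRep

/-!
Row 120: the trace on a model, and the final properties.
-/

set_option autoImplicit false
set_option linter.unusedSectionVars false

namespace Crest.Agent.R120

open Filter Topology Finset UHF
open scoped InnerProductSpace

/-- limits of bounded sequences along the hyperfilter -/
lemma exists_ulim (f : ℕ → ℂ) (C : ℝ) (h : ∀ n, ‖f n‖ ≤ C) :
    ∃ z, Tendsto f (hyperfilter ℕ : Filter ℕ) (𝓝 z) := by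
  obtain ⟨z, -, hz⟩ := (isCompact_closedBall (0 : ℂ) C).ultrafilter_le_nhds
    ((hyperfilter ℕ).map f) (by
      rw [Ultrafilter.coe_map, le_principal_iff, Filter.mem_map]
      exact univ_mem' fun n => by simpa using h n)
  exact ⟨z, hz⟩

lemma hyper_le : (hyperfilter ℕ : Filter ℕ) ≤ atTop := by
  rw [← Nat.cofinite_eq_atTop]
  exact hyperfilter_le_cofinite

/-- limits of pointwise bounded sequences of functionals -/
lemma exists_ulim_lin {A : Type} [AddCommGroup A] [Module ℂ A] (f : ℕ → A →ₗ[ℂ] ℂ)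
    (h : ∀ a, ∃ C, ∀ n, ‖f n a‖ ≤ C) :
    ∃ ψ : A →ₗ[ℂ] ℂ, ∀ a, Tendsto (fun n => f n a) (hyperfilter ℕ : Filter ℕ) (𝓝 (ψ a)) := by
  choose z hz using fun a => (h a).elim fun C hC => exists_ulim (fun n => f n a) C hC
  refine ⟨{ toFun := z, map_add' := fun a b => ?_, map_smul' := fun c a => ?_ }, hz⟩
  · exact tendsto_nhds_unique (hz (a + b)) (by simpa using (hz a).add (hz b))
  · exact tendsto_nhds_unique (hz (c • a)) (by simpa using (hz a).const_mul c)

variable {D : Type} [NormedRing D] [StarRing D] [CStarRing D] [NormedAlgebra ℂ D] [StarModule ℂ D]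

namespace Model
variable {u : UHF D} {A : Type} [CStarAlgebra A] (M : Model u A)
variable {H : Type} [NormedAddCommGroup H] [InnerProductSpace ℂ H] [CompleteSpace H]
variable (ρ : A →⋆ₐ[ℂ] (H →L[ℂ] H)) (ξ : H)

/-- the basis vectors at level `k` -/
noncomputable def vec (k : ℕ) (i : Fin (2 ^ k)) : H := ρ (M.ι (u.x k i)) ξ

/-- the averaged vector states -/
noncomputable def avg (k : ℕ) : A →ₗ[ℂ] ℂ where
  toFun a := ((2 ^ k : ℝ)⁻¹ : ℝ) * ∑ i, ⟪M.vec ρ ξ k i, ρ a (M.vec ρ ξ k i)⟫_ℂ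
  map_add' a b := by simp [inner_add_right, sum_add_distrib, mul_add]
  map_smul' c a := by
    simp only [map_smul, smul_apply, inner_smul_right, RingHom.id_apply, smul_eq_mul, ← mul_sum]
    ring

variable {ρ ξ}

lemma avg_apply (k : ℕ) (a : A) : M.avg ρ ξ k a =
    ((2 ^ k : ℝ)⁻¹ : ℝ) * ∑ i, ⟪M.vec ρ ξ k i, ρ a (M.vec ρ ξ k i)⟫_ℂ := rfl

lemma vec_orth (h1 : ‖ξ‖ = 1) (h2 : ∀ k, ρ (M.ι (u.e k)) ξ = ξ) (k : ℕ) :
    Orthonormal ℂ (M.vec ρ ξ k) := by
  rw [orthonormal_iff_ite]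
  intro i j
  rw [vec, vec, inner_mul, ← map_star, ← map_mul, u.orth]
  split_ifs <;> simp [h2, h1]

lemma unit_vec (h2 : ∀ k, ρ (M.ι (u.e k)) ξ = ξ) (k : ℕ) (i j l : Fin (2 ^ k)) :
    ρ (M.ι (u.x k i * star (u.x k j))) (M.vec ρ ξ k l) =
      if j = l then M.vec ρ ξ k i else 0 := by
  rw [vec, ← mul_apply_eq_comp, ← map_mul, ← map_mul, mul_assoc, u.orth]
  split_ifs
  · rw [u.x_e]
    rfl
  · simp

lemma avg_sq (k : ℕ) (y : A) : M.avg ρ ξ k (star y * y) =
    (((2 ^ k : ℝ)⁻¹ * ∑ i, ‖ρ y (M.vec ρ ξ k i)‖ ^ 2 : ℝ) : ℂ) := by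
  simp only [avg_apply, ← inner_mul, inner_self_eq_norm_sq_to_K]
  push_cast
  rfl

lemma avg_le (k : ℕ) (y a : A) :
    ‖M.avg ρ ξ k (star y * a * y)‖ ≤ ‖a‖ * (M.avg ρ ξ k (star y * y)).re := by
  rw [avg_sq, Complex.ofReal_re, avg_apply, norm_mul, Complex.norm_real,
    Real.norm_of_nonneg (by positivity), mul_left_comm, mul_sum]
  gcongr
  refine (norm_sum_le _ _).trans (sum_le_sum fun i _ => ?_)
  rw [mul_assoc, ← inner_mul, map_mul, mul_apply_eq_comp]
  refine (norm_inner_le_norm _ _).trans ?_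
  have := (ρ a).le_of_opNorm_le (NonUnitalStarAlgHom.norm_apply_le ρ a) (ρ y (M.vec ρ ξ k i))
  nlinarith [norm_nonneg (ρ y (M.vec ρ ξ k i))]

lemma avg_one (h1 : ‖ξ‖ = 1) (h2 : ∀ k, ρ (M.ι (u.e k)) ξ = ξ) (k : ℕ) : M.avg ρ ξ k 1 = 1 := by
  simp [avg_apply, (M.vec_orth h1 h2 k).1]

lemma avg_comm (h2 : ∀ k, ρ (M.ι (u.e k)) ξ = ξ) (k : ℕ) (a : A) {d : D}
    (hd : d ∈ Submodule.span ℂ {y | ∃ i j, y = u.x k i * star (u.x k j)}) :
    M.avg ρ ξ k (M.ι d * a) = M.avg ρ ξ k (a * M.ι d) := by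
  induction hd using Submodule.span_induction with
  | mem y hy =>
    obtain ⟨i, j, rfl⟩ := hy
    rw [avg_apply, avg_apply]
    congr 1
    have e : M.ι (u.x k i * star (u.x k j)) = star (M.ι (u.x k j * star (u.x k i))) := by
      rw [← map_star, star_mul, star_star]
    conv_lhs => simp only [e, ← inner_mul, M.unit_vec h2]
    simp only [map_mul ρ a, mul_apply_eq_comp, M.unit_vec h2, apply_ite (ρ a), map_zero,
      apply_ite (inner ℂ _), inner_zero_right, sum_ite_eq, mem_univ, if_true]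
    rw [sum_eq_single i (fun l _ hl => by simp [hl.symm]) (by simp), if_pos rfl]
  | zero => simp
  | add x y _ _ hx hy => simp [add_mul, mul_add, hx, hy]
  | smul c x _ hx => simp [hx]

lemma exists_trace (h1 : ‖ξ‖ = 1) (h2 : ∀ k, ρ (M.ι (u.e k)) ξ = ξ)
    (hs : ∀ I : TwoSidedIdeal A, I = ⊥ ∨ I = ⊤) :
    ∃ τ : A →ₗ[ℂ] ℂ, Crest.OpAlg.IsFaithfulTracialState τ := by
  have hb : ∀ k a, ‖M.avg ρ ξ k a‖ ≤ ‖a‖ := fun k a => by
    simpa [M.avg_one h1 h2] using M.avg_le (ρ := ρ) (ξ := ξ) k 1 a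
  obtain ⟨ψ, hψ⟩ := exists_ulim_lin (M.avg ρ ξ) fun a => ⟨_, fun k => hb k a⟩
  have a1 : ψ 1 = 1 := tendsto_nhds_unique (hψ 1) (by simp [M.avg_one h1 h2])
  have a2 : ∀ y a, ‖ψ (star y * a * y)‖ ≤ ‖a‖ * (ψ (star y * y)).re := fun y a =>
    le_of_tendsto_of_tendsto' (hψ _).norm
      (((Complex.continuous_re.tendsto _).comp (hψ _)).const_mul _) fun k => M.avg_le k y a
  have a3 : ∀ a, ‖ψ a‖ ≤ ‖a‖ := fun a => le_of_tendsto' (hψ _).norm fun k => hb k a
  have a4 : ∀ d a, ψ (M.ι d * a) = ψ (a * M.ι d) := fun d a => by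
    refine tendsto_nhds_unique (hψ _) ((hψ _).congr' ?_)
    filter_upwards [hyper_le (u.level d)] with k hk
    exact (M.avg_comm h2 k a hk).symm
  have a5 : ∀ n, ψ (M.ι (u.e n)) = ((2 ^ n : ℝ)⁻¹ : ℝ) := fun n => by
    have h3 := congrArg (fun d => ψ (M.ι d)) (u.sum n)
    have h4 : ∀ i, ψ (M.ι (u.x n i * star (u.x n i))) = ψ (M.ι (u.e n)) := fun i => by
      rw [map_mul, a4, ← map_mul, u.orth, if_pos rfl]
    simp only [map_sum, h4, map_one, a1, sum_const, card_univ, Fintype.card_fin,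
      nsmul_eq_mul] at h3
    push_cast at h3 ⊢
    exact eq_inv_of_mul_eq_one_right h3
  have a6 : ∀ {p : D}, IsStarProjection p → ∀ a, ‖ψ (M.ι p * a)‖ ≤ ‖a‖ * ‖ψ (M.ι p)‖ := by
    intro p hp a
    have h3 := a2 (M.ι p) a
    have h4 := hp.map M.ι
    rw [h4.isSelfAdjoint.star_eq, h4.isIdempotentElem.eq, ← a4, ← mul_assoc,
      h4.isIdempotentElem.eq] at h3
    exact h3.trans (mul_le_mul_of_nonneg_left (Complex.re_le_norm _) (norm_nonneg _))
  have a7 : ∀ (α : u.Exc) n, ‖ψ (M.ι (α.p n))‖ ≤ (2 ^ n)⁻¹ := fun α n => by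
    have h3 := a6 (u.e_proj n) (M.ι (α.p n))
    rw [← map_mul, α.hi, a5, Complex.norm_real, Real.norm_of_nonneg (by positivity)] at h3
    exact h3.trans (mul_le_of_le_one_left (by positivity) (((α.hp n).map M.ι).norm_le _))
  have a8 : ∀ (α : u.Exc) n, ψ (M.ι (α.q n)) = ψ (M.ι (α.p n)) := fun α n => by
    rw [α.hq, mul_assoc, map_mul, a4, ← map_mul, mul_assoc, (α.hw n).1, mul_one]
  have a9 : ∀ α ∈ M.F, ∀ a, ψ (M.U α * a) = ψ (a * M.U α) := by
    intro α hα a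
    have h3 : ∀ n, ‖ψ (M.U α * a) - ψ (a * M.U α)‖ ≤ 2 * ‖a‖ * (2 ^ n)⁻¹ := by
      intro n
      have e : M.U α = M.ι (α.w n * (1 - α.p n)) + M.U α * M.ι (α.p n) := by
        rw [← M.rel α hα, mul_sub]
        simp
      have e' : ψ (M.U α * a) - ψ (a * M.U α) =
          ψ (M.ι (α.q n) * (M.U α * a)) - ψ (M.ι (α.p n) * (a * M.U α)) := by
        rw [← mul_assoc, M.q_mul hα, a4 (α.p n), mul_assoc a]
        conv_lhs => rw [e]
        rw [add_mul, mul_add, map_add, map_add, a4]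
        ring
      have b1 := a6 (α.q_proj n) (M.U α * a)
      have b2 := a6 (α.hp n) (a * M.U α)
      rw [a8, CStarRing.norm_mem_unitary_mul _ (M.hU α hα)] at b1
      rw [M.norm_U hα] at b2
      have b3 := mul_le_mul_of_nonneg_left (a7 α n) (norm_nonneg a)
      rw [e']
      refine (norm_sub_le _ _).trans ?_
      linarith
    have h4 : Tendsto (fun n : ℕ => 2 * ‖a‖ * ((2 : ℝ) ^ n)⁻¹) atTop (𝓝 (2 * ‖a‖ * 0)) :=
      (tendsto_inv_atTop_zero.comp (tendsto_pow_atTop_atTop_of_one_lt one_lt_two)).const_mul _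
    have h5 := ge_of_tendsto' h4 h3
    rw [mul_zero] at h5
    exact sub_eq_zero.1 (norm_le_zero_iff.1 h5)
  have hc : Continuous ψ := AddMonoidHomClass.continuous_of_bound ψ 1 (by simpa using a3)
  let T : Subalgebra ℂ A :=
    { carrier := {g | ∀ a, ψ (g * a) = ψ (a * g)}
      mul_mem' := fun ha hb s => by rw [mul_assoc, ha, mul_assoc, hb, mul_assoc]
      add_mem' := fun ha hb s => by rw [add_mul, mul_add, map_add, map_add, ha, hb]
      algebraMap_mem' := fun c s => by rw [Algebra.commutes] }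
  have hT : IsClosed (T : Set A) := by
    have : (T : Set A) = ⋂ a, {g | ψ (g * a) = ψ (a * g)} := by
      ext g
      simp [T]
    rw [this]
    exact isClosed_iInter fun s => isClosed_eq (by fun_prop) (by fun_prop)
  have htr : ∀ g a, ψ (g * a) = ψ (a * g) := M.gen T hT a4 fun α hα => ⟨a9 α hα, fun a => by
    have := a9 α hα (star (M.U α) * a * star (M.U α))
    rw [← mul_assoc, ← mul_assoc, (M.hU α hα).2, one_mul, mul_assoc, mul_assoc, (M.hU α hα).1,
      mul_one] at this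
    exact this.symm⟩
  refine ⟨ψ, a1, fun a => ⟨?_, ?_⟩, fun a ha => ?_, htr⟩
  · refine tendsto_nhds_unique ((Complex.continuous_im.tendsto _).comp (hψ _)) ?_
    refine tendsto_const_nhds.congr fun k => ?_
    simp only [Function.comp, M.avg_sq, Complex.ofReal_im]
  · refine ge_of_tendsto' ((Complex.continuous_re.tendsto _).comp (hψ _)) fun k => ?_
    simp only [Function.comp, M.avg_sq, Complex.ofReal_re]
    positivity
  · let I : TwoSidedIdeal A := TwoSidedIdeal.mk' {g | ∀ b, ψ (b * g) = 0} (by simp)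
      (fun hx hy b => by rw [mul_add, map_add, hx, hy, add_zero])
      (fun hx b => by rw [mul_neg, map_neg, hx, neg_zero])
      (fun hx b => by rw [← mul_assoc, hx])
      (fun hx b => by rw [← mul_assoc, htr, ← mul_assoc, hx])
    have hI : ∀ g, g ∈ I ↔ ∀ b, ψ (b * g) = 0 := fun g => TwoSidedIdeal.mem_mk' _ _ _ _ _ _ _
    rcases hs I with h | h
    · have h3 : a * star a ∈ I := (hI _).2 fun b => by
        have := a2 a b
        rw [ha, Complex.zero_re, mul_zero, norm_le_zero_iff] at this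
        rw [← mul_assoc, htr, ← mul_assoc, this]
      rw [h, TwoSidedIdeal.mem_bot] at h3
      exact (CStarRing.mul_star_self_eq_zero_iff a).1 h3
    · have := (hI 1).1 (h ▸ TwoSidedIdeal.mem_top _) 1
      simp [a1] at this

lemma infinite_dim (h1 : ‖ξ‖ = 1) (h2 : ∀ k, ρ (M.ι (u.e k)) ξ = ξ) : ¬ FiniteDimensional ℂ A := by
  intro hf
  have h3 := LinearIndependent.of_comp (orb ρ ξ) (v := fun i => M.ι (u.x (Module.finrank ℂ A) i))
    (M.vec_orth h1 h2 _).linearIndependent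
  have h4 := h3.fintype_card_le_finrank
  rw [Fintype.card_fin] at h4
  exact absurd Nat.lt_two_pow_self (not_lt.2 h4)

end Model

lemma upgrade {A : Type} [CStarAlgebra A] {H : Type} [NormedAddCommGroup H] [InnerProductSpace ℂ H]
    [CompleteSpace H] {π : A →⋆ₙₐ[ℂ] (H →L[ℂ] H)} (h : Crest.OpAlg.IsIrreducibleRep π) :
    ∃ σ : A →⋆ₐ[ℂ] (H →L[ℂ] H), (∀ a, σ a = π a) ∧ Irr σ ∧ ∃ ζ : H, ‖ζ‖ = 1 := by
  have h1 : π 1 = 1 := by
    rcases h.2 (π 1).ker (π 1).isClosed_ker (fun a v hv => by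
      have h1 : π 1 v = 0 := hv
      change π 1 (π a v) = 0
      rw [← mul_apply_eq_comp, ← map_mul, one_mul, ← mul_one a, map_mul, mul_apply_eq_comp, h1,
        map_zero]) with h1 | h1
    · ext v
      have : π 1 v - v ∈ (π 1).ker := by
        change π 1 (π 1 v - v) = 0
        rw [map_sub, ← mul_apply_eq_comp, ← map_mul, one_mul, sub_self]
      rw [h1, Submodule.mem_bot, sub_eq_zero] at this
      exact this
    · exfalso
      refine h.1 (NonUnitalStarAlgHom.ext fun a => ContinuousLinearMap.ext fun v => ?_)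
      have h2 : v ∈ (π 1).ker := h1 ▸ Submodule.mem_top
      have h3 : π 1 v = 0 := h2
      rw [← mul_one a, map_mul, mul_apply_eq_comp, h3, map_zero]
      rfl
  refine ⟨{ toFun := π, map_one' := h1, map_mul' := map_mul π, map_zero' := map_zero π,
            map_add' := map_add π, map_star' := map_star π,
            commutes' := fun c => by
              rw [Algebra.algebraMap_eq_smul_one, Algebra.algebraMap_eq_smul_one, map_smul, h1] },
    fun _ => rfl, h.2, ?_⟩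
  by_contra h2
  refine h.1 (NonUnitalStarAlgHom.ext fun a => ContinuousLinearMap.ext fun v => ?_)
  by_contra h3
  have h4 : π a v ≠ 0 := h3
  refine h2 ⟨((‖π a v‖⁻¹ : ℝ) : ℂ) • π a v, ?_⟩
  rw [norm_smul, Complex.norm_real, norm_inv, norm_norm, inv_mul_cancel₀ (norm_ne_zero_iff.2 h4)]

theorem Model.main {u : UHF D} {A : Type} [CStarAlgebra A] (M : Model u A) {H : Type}
    [NormedAddCommGroup H] [InnerProductSpace ℂ H] [CompleteSpace H]
    {ρ : A →⋆ₐ[ℂ] (H →L[ℂ] H)} (hρ : Function.Injective ρ) {ξ : H} (h1 : ‖ξ‖ = 1)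
    (h2 : ∀ k, ρ (M.ι (u.e k)) ξ = ξ) (h3 : DenseRange (orb ρ ξ)) :
    ¬ FiniteDimensional ℂ A ∧
      (∀ I : TwoSidedIdeal A, IsClosed (I : Set A) → I = ⊥ ∨ I = ⊤) ∧
      (∃ τ : A →ₗ[ℂ] ℂ, Crest.OpAlg.IsFaithfulTracialState τ) ∧
      ∀ (H₁ : Type) [NormedAddCommGroup H₁] [InnerProductSpace ℂ H₁] [CompleteSpace H₁]
        (H₂ : Type) [NormedAddCommGroup H₂] [InnerProductSpace ℂ H₂] [CompleteSpace H₂]
        (π₁ : A →⋆ₙₐ[ℂ] (H₁ →L[ℂ] H₁)) (π₂ : A →⋆ₙₐ[ℂ] (H₂ →L[ℂ] H₂)),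
        Crest.OpAlg.IsIrreducibleRep π₁ → Crest.OpAlg.IsIrreducibleRep π₂ →
          Crest.OpAlg.AreUnitarilyEquivalent π₁ π₂ := by
  refine ⟨M.infinite_dim h1 h2, fun I _ => M.simple hρ h1 h2 h3 I,
    M.exists_trace h1 h2 (M.simple hρ h1 h2 h3), fun H₁ _ _ _ H₂ _ _ _ π₁ π₂ i₁ i₂ => ?_⟩
  obtain ⟨σ₁, a1, a2, ζ₁, a3⟩ := upgrade i₁
  obtain ⟨σ₂, b1, b2, ζ₂, b3⟩ := upgrade i₂
  obtain ⟨U, hU⟩ := M.equiv a2 b2 a3 b3
  exact ⟨U, fun a v => by rw [← a1, ← b1, hU]⟩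

end Crest.Agent.R120
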